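import Mathlib

/-! Elementary lemmas for row 254: the lexicographic argument, telescoping sums, counting. -/

set_option autoImplicit false

namespace Crest.Agent.R254

open Finset

/-- The lexicographic extremal argument. -/
theorem lex_false {T : Type*} [Nonempty T] (A B : T → ℝ) (D γ : ℝ) (hγ : 0 < γ)
    (hA0 : ∀ τ, 0 ≤ A τ) (hAD : ∀ τ, A τ ≤ D) (hBD : ∀ τ, B τ ≤ D)
    (h : ∀ η₁ : ℝ, 0 < η₁ → ∃ η : ℝ, 0 < η ∧ ∀ τ, (∃ τ', B τ + η ≤ B τ') ∨
      (∀ lam : ℝ, 0 ≤ lam → ∃ τ', A τ + γ + lam * (B τ - η₁) ≤ A τ' + lam * B τ')) : False := by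
  have hbdd : BddAbove (Set.range B) := ⟨D, by rintro _ ⟨τ, rfl⟩; exact hBD τ⟩
  set Bs : ℝ := ⨆ τ, B τ with hBs
  have hle : ∀ τ, B τ ≤ Bs := fun τ => le_ciSup hbdd τ
  have hD : 0 ≤ D := (hA0 (Classical.arbitrary T)).trans (hAD _)
  have key : ∀ k : ℕ, ∀ ε : ℝ, 0 < ε → ∃ τ, Bs - ε < B τ ∧ (k : ℝ) * (γ / 2) ≤ A τ := by
    intro k
    induction k with
    | zero =>
      intro ε hε
      obtain ⟨τ, hτ⟩ := exists_lt_of_lt_ciSup (f := B) (b := Bs - ε) (by rw [← hBs]; linarith)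
      exact ⟨τ, hτ, by simpa using hA0 τ⟩
    | succ k ih =>
      intro ε hε
      set lam : ℝ := (3 * D + 1) / ε with hlam
      have hlam0 : 0 < lam := by positivity
      have hlamε : lam * ε = 3 * D + 1 := by rw [hlam]; field_simp
      obtain ⟨η, hη, hτ⟩ := h (min (ε / 3) (γ / (4 * lam))) (by positivity)
      obtain ⟨τ, h1, h2⟩ := ih (min η (min (ε / 3) (γ / (4 * lam)))) (by positivity)
      set μ : ℝ := min (ε / 3) (γ / (4 * lam)) with hμ
      have hμ1 : μ ≤ ε / 3 := min_le_left _ _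
      have hμ2 : lam * μ ≤ γ / 4 := by
        have : μ ≤ γ / (4 * lam) := min_le_right _ _
        calc lam * μ ≤ lam * (γ / (4 * lam)) := by gcongr
          _ = γ / 4 := by field_simp
      have h3 : Bs - η < B τ := lt_of_le_of_lt (by linarith [min_le_left η μ]) h1
      have h4 : Bs - μ < B τ := lt_of_le_of_lt (by linarith [min_le_right η μ]) h1
      rcases hτ τ with ⟨τ', h5⟩ | h5
      · linarith [hle τ']
      · obtain ⟨τ', h6⟩ := h5 lam hlam0.le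
        have h7 : lam * (Bs - μ) ≤ lam * B τ := by gcongr
        have h8 : lam * B τ' ≤ lam * Bs := by gcongr; exact hle τ'
        refine ⟨τ', ?_, ?_⟩
        · by_contra hc
          push Not at hc
          have h9 : lam * B τ' ≤ lam * (Bs - ε) := by gcongr
          have h10 : lam * μ ≤ lam * (ε / 3) := by gcongr
          have := hAD τ'
          have := hA0 τ
          nlinarith
        · push_cast
          nlinarith
  obtain ⟨k, hk⟩ := exists_nat_gt (D / (γ / 2))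
  obtain ⟨τ, -, h2⟩ := key k 1 one_pos
  have : D < (k : ℝ) * (γ / 2) := by
    rwa [div_lt_iff₀ (by positivity)] at hk
  linarith [hAD τ]

theorem sum_range_mul' (f : ℕ → ℝ) (N M : ℕ) :
    ∑ i ∈ range (N * M), f i = ∑ a ∈ range N, ∑ b ∈ range M, f (a * M + b) := by
  induction N with
  | zero => simp
  | succ N ih => rw [Nat.succ_mul, sum_range_add, ih, sum_range_succ]

theorem sum_range_mul3 (f : ℕ → ℝ) (R m q : ℕ) :
    ∑ i ∈ range (R * (m * q)), f i =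
      ∑ κ ∈ range R, ∑ v ∈ range m, ∑ c ∈ range q, f ((κ * m + v) * q + c) := by
  rw [← mul_assoc, sum_range_mul', sum_range_mul']

section
variable {E : Type*} [NormedAddCommGroup E]

theorem tele_norm (x : ℕ → E) (β L i j : ℕ) (hi : i ≤ L) (hj : j ≤ L) :
    ‖x (β + i) - x (β + j)‖ ≤ ∑ l ∈ range L, ‖x (β + l + 1) - x (β + l)‖ := by
  wlog hij : j ≤ i generalizing i j
  · rw [norm_sub_rev]; exact this j i hj hi (by omega)
  have h1 : x (β + i) - x (β + j) = ∑ l ∈ Ico j i, (x (β + l + 1) - x (β + l)) := by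
    have := Finset.sum_Ico_sub (fun l => x (β + l)) hij
    simpa [add_assoc] using this.symm
  rw [h1]
  refine (norm_sum_le _ _).trans ?_
  refine sum_le_sum_of_subset_of_nonneg ?_ (fun _ _ _ => norm_nonneg _)
  intro l hl
  simp only [mem_Ico, mem_range] at hl ⊢
  omega

theorem tele_sq' (x : ℕ → E) (β L i j : ℕ) (hi : i ≤ L) (hj : j ≤ L) :
    ‖x (β + i) - x (β + j)‖ ^ 2 ≤ L * ∑ l ∈ range L, ‖x (β + l + 1) - x (β + l)‖ ^ 2 := by
  have h1 := tele_norm x β L i j hi hj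
  have h2 := sq_sum_le_card_mul_sum_sq (s := range L) (f := fun l => ‖x (β + l + 1) - x (β + l)‖)
  rw [card_range] at h2
  exact (pow_le_pow_left₀ (norm_nonneg _) h1 2).trans h2

theorem tele_sq (x : ℕ → E) (L : ℕ) :
    ‖x L - x 0‖ ^ 2 ≤ L * ∑ l ∈ range L, ‖x (l + 1) - x l‖ ^ 2 := by
  simpa using tele_sq' x 0 L L 0 le_rfl (Nat.zero_le _)

theorem norm_add_sq_ge (u v : E) : ‖u‖ ^ 2 - 2 * ‖u‖ * ‖v‖ ≤ ‖u + v‖ ^ 2 := by
  have h1 : |‖u‖ - ‖v‖| ≤ ‖u + v‖ := by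
    have := abs_norm_sub_norm_le u (-v)
    simpa using this
  have h2 : (‖u‖ - ‖v‖) ^ 2 ≤ ‖u + v‖ ^ 2 := by
    rw [← sq_abs]; exact pow_le_pow_left₀ (abs_nonneg _) h1 2
  nlinarith [sq_nonneg ‖v‖]

/-- One block: the pigeonhole step. -/
theorem block_lemma (P Q : ℕ → ℕ → E) (m p q : ℕ) (δ : ℝ) (hδ : 0 ≤ δ) (β κ b₀ c₀ : ℕ)
    (hb₀ : b₀ < p) (hc₀ : c₀ < q)
    (hpack : ∃ u < m, ∃ v < m, u ≠ v ∧
      ‖P ((β * m + u) * p + b₀) ((κ * m + u) * q + c₀) -
        P ((β * m + v) * p + b₀) ((κ * m + v) * q + c₀)‖ ≤ δ)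
    (hdiag : ∀ u < m, ‖P ((β * m + u) * p + b₀) ((κ * m + u) * q + c₀) -
        Q ((β * m + u) * p + b₀) ((κ * m + u) * q + c₀)‖ ≤ δ)
    (hoff : ∀ u < m, ∀ v < m, u ≠ v → 4 * δ ≤ ‖P ((β * m + u) * p + b₀) ((κ * m + v) * q + c₀) -
        Q ((β * m + u) * p + b₀) ((κ * m + v) * q + c₀)‖) :
    δ ^ 2 ≤ ((m * p : ℕ) : ℝ) * ∑ v ∈ range m, ∑ l ∈ range (m * p),
        ‖P (β * (m * p) + l + 1) ((κ * m + v) * q + c₀) -
          P (β * (m * p) + l) ((κ * m + v) * q + c₀)‖ ^ 2 +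
      ((m * q : ℕ) : ℝ) * ∑ u ∈ range m, ∑ l ∈ range (m * q),
        ‖Q ((β * m + u) * p + b₀) (κ * (m * q) + l + 1) -
          Q ((β * m + u) * p + b₀) (κ * (m * q) + l)‖ ^ 2 := by
  obtain ⟨u, hu, v, hv, huv, h1⟩ := hpack
  have h2 := hdiag u hu
  have h3 := hoff u hu v hv huv
  have e1 : ∀ u, (β * m + u) * p + b₀ = β * (m * p) + (u * p + b₀) := fun u => by ring
  have e2 : ∀ u, (κ * m + u) * q + c₀ = κ * (m * q) + (u * q + c₀) := fun u => by ring
  have l1 : ∀ u < m, u * p + b₀ ≤ m * p := fun u hu => by nlinarith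
  have l2 : ∀ u < m, u * q + c₀ ≤ m * q := fun u hu => by nlinarith
  have t1 := tele_sq' (fun b => P b ((κ * m + v) * q + c₀)) (β * (m * p)) (m * p) _ _
    (l1 u hu) (l1 v hv)
  have t2 := tele_sq' (fun c => Q ((β * m + u) * p + b₀) c) (κ * (m * q)) (m * q) _ _
    (l2 u hu) (l2 v hv)
  simp only [← e1, ← e2] at t1 t2
  set a1 := P ((β * m + u) * p + b₀) ((κ * m + v) * q + c₀)
  set a2 := P ((β * m + v) * p + b₀) ((κ * m + v) * q + c₀)
  set a3 := P ((β * m + u) * p + b₀) ((κ * m + u) * q + c₀)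
  set a4 := Q ((β * m + u) * p + b₀) ((κ * m + u) * q + c₀)
  set a5 := Q ((β * m + u) * p + b₀) ((κ * m + v) * q + c₀)
  have h4 : ‖a1 - a5‖ ≤ ‖a1 - a2‖ + ‖a3 - a2‖ + ‖a3 - a4‖ + ‖a4 - a5‖ := by
    have : a1 - a5 = (a1 - a2) - (a3 - a2) + (a3 - a4) + (a4 - a5) := by abel
    rw [this]
    refine (norm_add_le _ _).trans ?_
    gcongr
    refine (norm_add_le _ _).trans ?_
    gcongr
    exact norm_sub_le _ _
  have s1 : ∑ l ∈ range (m * p), ‖P (β * (m * p) + l + 1) ((κ * m + v) * q + c₀) -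
          P (β * (m * p) + l) ((κ * m + v) * q + c₀)‖ ^ 2 ≤
      ∑ v ∈ range m, ∑ l ∈ range (m * p),
        ‖P (β * (m * p) + l + 1) ((κ * m + v) * q + c₀) -
          P (β * (m * p) + l) ((κ * m + v) * q + c₀)‖ ^ 2 :=
    single_le_sum (f := fun v => ∑ l ∈ range (m * p),
        ‖P (β * (m * p) + l + 1) ((κ * m + v) * q + c₀) -
          P (β * (m * p) + l) ((κ * m + v) * q + c₀)‖ ^ 2)
      (fun _ _ => by positivity) (mem_range.2 hv)
  have s2 : ∑ l ∈ range (m * q), ‖Q ((β * m + u) * p + b₀) (κ * (m * q) + l + 1) -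
          Q ((β * m + u) * p + b₀) (κ * (m * q) + l)‖ ^ 2 ≤
      ∑ u ∈ range m, ∑ l ∈ range (m * q),
        ‖Q ((β * m + u) * p + b₀) (κ * (m * q) + l + 1) -
          Q ((β * m + u) * p + b₀) (κ * (m * q) + l)‖ ^ 2 :=
    single_le_sum (f := fun u => ∑ l ∈ range (m * q),
        ‖Q ((β * m + u) * p + b₀) (κ * (m * q) + l + 1) -
          Q ((β * m + u) * p + b₀) (κ * (m * q) + l)‖ ^ 2)
      (fun _ _ => by positivity) (mem_range.2 hu)
  have t1' := t1.trans (mul_le_mul_of_nonneg_left s1 (by positivity))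
  have t2' := t2.trans (mul_le_mul_of_nonneg_left s2 (by positivity))
  have h5 : δ ^ 2 ≤ ‖a1 - a2‖ ^ 2 + ‖a4 - a5‖ ^ 2 := by
    rcases le_total δ ‖a1 - a2‖ with h | h
    · have := pow_le_pow_left₀ hδ h 2
      nlinarith [sq_nonneg ‖a4 - a5‖]
    · have h' : δ ≤ ‖a4 - a5‖ := by linarith
      have := pow_le_pow_left₀ hδ h' 2
      nlinarith [sq_nonneg ‖a1 - a2‖]
  linarith

end

/-- Summing the block inequality over all configurations. -/
theorem count_lemma (H V : ℕ → ℕ → ℝ) (m p q R' R : ℕ) (d : ℝ)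
    (h : ∀ β < R', ∀ b₀ < p, ∀ κ < R, ∀ c₀ < q,
      d ≤ ((m * p : ℕ) : ℝ) * ∑ v ∈ range m, ∑ l ∈ range (m * p),
        H (β * (m * p) + l) ((κ * m + v) * q + c₀) +
      ((m * q : ℕ) : ℝ) * ∑ u ∈ range m, ∑ l ∈ range (m * q),
        V ((β * m + u) * p + b₀) (κ * (m * q) + l)) :
    (R' : ℝ) * p * R * q * d ≤
      (p : ℝ) * (m * p) * ∑ c ∈ range (R * (m * q)), ∑ b ∈ range (R' * (m * p)), H b c +
      (q : ℝ) * (m * q) * ∑ b ∈ range (R' * (m * p)), ∑ c ∈ range (R * (m * q)), V b c := by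
  have h1 : (R' : ℝ) * p * R * q * d =
      ∑ β ∈ range R', ∑ b₀ ∈ range p, ∑ κ ∈ range R, ∑ c₀ ∈ range q, d := by
    simp only [sum_const, card_range, nsmul_eq_mul]; ring
  have h2 : (p : ℝ) * (m * p) * ∑ c ∈ range (R * (m * q)), ∑ b ∈ range (R' * (m * p)), H b c =
      ∑ β ∈ range R', ∑ b₀ ∈ range p, ∑ κ ∈ range R, ∑ c₀ ∈ range q,
        ((m * p : ℕ) : ℝ) * ∑ v ∈ range m, ∑ l ∈ range (m * p),
          H (β * (m * p) + l) ((κ * m + v) * q + c₀) := by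
    simp only [sum_const, card_range, nsmul_eq_mul, ← mul_sum]
    rw [sum_range_mul3]
    simp only [sum_range_mul' _ R' (m * p)]
    push_cast
    rw [mul_assoc]
    congr 2
    symm
    rw [sum_comm]
    refine sum_congr rfl fun κ _ => ?_
    calc ∑ β ∈ range R', ∑ c₀ ∈ range q, ∑ v ∈ range m, ∑ l ∈ range (m * p),
          H (β * (m * p) + l) ((κ * m + v) * q + c₀)
        = ∑ c₀ ∈ range q, ∑ v ∈ range m, ∑ β ∈ range R', ∑ l ∈ range (m * p),
          H (β * (m * p) + l) ((κ * m + v) * q + c₀) := by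
          rw [sum_comm]
          refine sum_congr rfl fun c₀ _ => ?_
          rw [sum_comm]
      _ = _ := by rw [sum_comm]
  have h3 : (q : ℝ) * (m * q) * ∑ b ∈ range (R' * (m * p)), ∑ c ∈ range (R * (m * q)), V b c =
      ∑ β ∈ range R', ∑ b₀ ∈ range p, ∑ κ ∈ range R, ∑ c₀ ∈ range q,
        ((m * q : ℕ) : ℝ) * ∑ u ∈ range m, ∑ l ∈ range (m * q),
          V ((β * m + u) * p + b₀) (κ * (m * q) + l) := by
    simp only [sum_const, card_range, nsmul_eq_mul, ← mul_sum]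
    rw [sum_range_mul3]
    simp only [sum_range_mul' _ R (m * q)]
    push_cast
    rw [mul_assoc]
    congr 2
    refine sum_congr rfl fun β _ => ?_
    rw [sum_comm]
    refine sum_congr rfl fun b₀ _ => ?_
    rw [sum_comm]
  rw [h1, h2, h3, ← sum_add_distrib]
  refine sum_le_sum fun β hβ => ?_
  rw [← sum_add_distrib]
  refine sum_le_sum fun b₀ hb₀ => ?_
  rw [← sum_add_distrib]
  refine sum_le_sum fun κ hκ => ?_
  rw [← sum_add_distrib]
  refine sum_le_sum fun c₀ hc₀ => ?_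
  exact h β (mem_range.1 hβ) b₀ (mem_range.1 hb₀) κ (mem_range.1 hκ) c₀ (mem_range.1 hc₀)

section
variable {E : Type*} [NormedAddCommGroup E] [InnerProductSpace ℝ E]

/-- Parallelogram gain along a subdivided segment. -/
theorem par_seq (x x' : ℕ → E) (L : ℕ) :
    2 * ‖x L - x 0‖ ^ 2 - 2 * ‖x L - x 0‖ * ‖(x' L - x L) - (x' 0 - x 0)‖ +
      L / 2 * ∑ l ∈ range L, ‖(x' (l + 1) - x (l + 1)) - (x' l - x l)‖ ^ 2 ≤
    L * ∑ l ∈ range L, (‖x (l + 1) - x l‖ ^ 2 + ‖x' (l + 1) - x' l‖ ^ 2) := by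
  have h1 := tele_sq (fun l => x l + x' l) L
  have h2 : ∀ l, ‖x (l + 1) - x l‖ ^ 2 + ‖x' (l + 1) - x' l‖ ^ 2 =
      (‖(x (l + 1) + x' (l + 1)) - (x l + x' l)‖ ^ 2 +
        ‖(x' (l + 1) - x (l + 1)) - (x' l - x l)‖ ^ 2) / 2 := by
    intro l
    have := parallelogram_law_with_norm ℝ (x' (l + 1) - x' l) (x (l + 1) - x l)
    have e1 : x' (l + 1) - x' l + (x (l + 1) - x l) = (x (l + 1) + x' (l + 1)) - (x l + x' l) := by
      abel
    have e2 : x' (l + 1) - x' l - (x (l + 1) - x l) = (x' (l + 1) - x (l + 1)) - (x' l - x l) := by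
      abel
    rw [e1, e2] at this
    nlinarith
  simp only [h2, ← sum_div, sum_add_distrib]
  have h3 := norm_add_sq_ge ((2 : ℝ) • (x L - x 0)) ((x' L - x L) - (x' 0 - x 0))
  have e3 : (2 : ℝ) • (x L - x 0) + ((x' L - x L) - (x' 0 - x 0)) =
      (x L + x' L) - (x 0 + x' 0) := by rw [two_smul]; abel
  rw [e3, norm_smul, Real.norm_ofNat] at h3
  nlinarith

end

end Crest.Agent.R254
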