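import Mathlib

/-! The construction of the set for row 254. -/

set_option autoImplicit false

namespace Crest.Agent.R254

open Finset

/-- Number of labels at level `l`. -/
def mm (l : ℕ) : ℕ := (Nat.unpair (Nat.unpair l).1).1 + 1

/-- Aspect ratio at level `l`. -/
def nn (l : ℕ) : ℕ := (Nat.unpair (Nat.unpair l).1).2 + 1

/-- Number of cells per side before level `l`. -/
def NN : ℕ → ℕ
  | 0 => 1
  | l + 1 => NN l * (1000 * (mm l * (nn l * mm l)))

/-- Amplitude of the lift at level `l`. -/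
noncomputable def rho (l : ℕ) : ℝ := (mm l : ℝ) / NN (l + 1)

theorem mm_pos (l : ℕ) : 0 < mm l := Nat.succ_pos _
theorem nn_pos (l : ℕ) : 0 < nn l := Nat.succ_pos _

theorem NN_pos (l : ℕ) : 0 < NN l := by
  induction l with
  | zero => exact one_pos
  | succ l ih =>
    have := mm_pos l
    have := nn_pos l
    simp only [NN]; positivity

theorem exists_level (m n j : ℕ) (hm : 0 < m) (hn : 0 < n) :
    ∃ l, j ≤ l ∧ mm l = m ∧ nn l = n := by
  refine ⟨Nat.pair (Nat.pair (m - 1) (n - 1)) j, Nat.right_le_pair _ _, ?_, ?_⟩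
  · simp only [mm, Nat.unpair_pair]; omega
  · simp only [nn, Nat.unpair_pair]; omega

theorem NN_dvd {j l : ℕ} (h : j ≤ l) : NN j ∣ NN l := by
  induction l, h using Nat.le_induction with
  | base => exact dvd_rfl
  | succ l _ ih => exact Dvd.dvd.mul_right ih _

theorem lt_NN (l : ℕ) : l < NN l := by
  induction l with
  | zero => exact one_pos
  | succ l ih =>
    have h1 := mm_pos l
    have h2 := nn_pos l
    have h3 : 1 ≤ mm l * (nn l * mm l) := Nat.succ_le_of_lt (by positivity)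
    simp only [NN]
    nlinarith

theorem rho_pos (l : ℕ) : 0 < rho l := by
  have h1 := mm_pos l
  have h2 := NN_pos (l + 1)
  unfold rho; positivity

theorem rho_le (l : ℕ) : rho l ≤ 1 / (1000 * NN l) := by
  have h1 : (1 : ℝ) ≤ mm l := by exact_mod_cast mm_pos l
  have h2 : (1 : ℝ) ≤ nn l := by exact_mod_cast nn_pos l
  have h3 : (0 : ℝ) < NN l := by exact_mod_cast NN_pos l
  unfold rho
  simp only [NN]
  push_cast
  rw [div_le_div_iff₀ (by positivity) (by positivity)]
  have : (1 : ℝ) ≤ nn l * mm l := by nlinarith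
  have h4 : 0 < (mm l : ℝ) * (1000 * NN l) := by positivity
  nlinarith

theorem le_rho (l : ℕ) : 1 / (NN (l + 1) : ℝ) ≤ rho l := by
  have h1 : (1 : ℝ) ≤ mm l := by exact_mod_cast mm_pos l
  have h3 : (0 : ℝ) < NN (l + 1) := by exact_mod_cast NN_pos _
  unfold rho
  gcongr

theorem rho_succ_le (l : ℕ) : rho (l + 1) ≤ rho l / 1000 := by
  have h1 := rho_le (l + 1)
  have h2 := le_rho l
  have h3 : (0 : ℝ) < NN (l + 1) := by exact_mod_cast NN_pos _
  have : 1 / (1000 * (NN (l + 1) : ℝ)) = 1 / (NN (l + 1) : ℝ) / 1000 := by field_simp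
  rw [this] at h1
  linarith

theorem sum_rho_le (a b : ℕ) : ∑ l ∈ Ico a b, rho l ≤ 2 * rho a := by
  have key : ∀ k a, ∑ l ∈ range k, rho (a + l) ≤ 2 * rho a := by
    intro k
    induction k with
    | zero => intro a; simpa using (rho_pos a).le
    | succ k ih =>
      intro a
      rw [sum_range_succ']
      have := ih (a + 1)
      have h2 := rho_succ_le a
      have h3 := rho_pos a
      have e : ∑ l ∈ range k, rho (a + (l + 1)) = ∑ l ∈ range k, rho (a + 1 + l) :=
        sum_congr rfl fun l _ => by congr 1; ring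
      rw [e, add_zero]
      linarith
  rw [sum_Ico_eq_sum_range]
  exact key _ _

/-- Admissible labels at level `l` over the point `(s, t)`. -/
def Lab (l : ℕ) (s t : ℝ) (i : ℕ) : Prop :=
  i = 0 ∨ (∃ U : ℕ, U * rho l ≤ s ∧ s ≤ (U + 1) * rho l ∧ i = U % mm l + 1) ∨
    (∃ V : ℕ, V * (nn l * rho l) ≤ t ∧ t ≤ (V + 1) * (nn l * rho l) ∧ i = V % mm l + 1)

section
variable {B : Type*} [NormedAddCommGroup B] [NormedSpace ℝ B]

/-- Admissible heights over `(s, t)` that use only the levels below `J`. -/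
def Valid (Y : ℕ → B) (J : ℕ) (s t : ℝ) (z : B) : Prop :=
  ∃ c : ℕ → ℕ, (∀ l, Lab l s t (c l)) ∧ (∀ l, J ≤ l → c l = 0) ∧
    z = ∑ l ∈ range J, rho l • Y (c l)

/-- The set whose closure is the example. -/
def SS (e1 e2 : B) (Y : ℕ → B) : Set B :=
  {P | ∃ (s t : ℝ) (J : ℕ) (z : B), s ∈ Set.Icc (0 : ℝ) 1 ∧ t ∈ Set.Icc (0 : ℝ) 1 ∧
    Valid Y J s t z ∧ P = s • e1 + t • e2 + z}

theorem sum_pad {Y : ℕ → B} (hY0 : Y 0 = 0) {c : ℕ → ℕ} {J J' : ℕ} (hc : ∀ l, J ≤ l → c l = 0)
    (h : J ≤ J') : ∑ l ∈ range J, rho l • Y (c l) = ∑ l ∈ range J', rho l • Y (c l) := by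
  refine sum_subset (range_subset_range.2 h) fun l _ hl => ?_
  rw [hc l (by simpa using hl), hY0, smul_zero]

theorem Valid.mono {Y : ℕ → B} (hY0 : Y 0 = 0) {J J' : ℕ} {s t : ℝ} {z : B}
    (h : Valid Y J s t z) (hJ : J ≤ J') : Valid Y J' s t z := by
  obtain ⟨c, h1, h2, h3⟩ := h
  exact ⟨c, h1, fun l hl => h2 l (hJ.trans hl), h3.trans (sum_pad hY0 h2 hJ)⟩

theorem Valid.succ {Y : ℕ → B} {l i : ℕ} {s t : ℝ} {z : B}
    (h : Valid Y l s t z) (hi : Lab l s t i) : Valid Y (l + 1) s t (z + rho l • Y i) := by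
  obtain ⟨c, h1, h2, h3⟩ := h
  refine ⟨Function.update c l i, fun k => ?_, fun k hk => ?_, ?_⟩
  · by_cases hk : k = l
    · subst hk; simpa using hi
    · rw [Function.update_of_ne hk]; exact h1 k
  · rw [Function.update_of_ne (by omega)]; exact h2 k (by omega)
  · rw [sum_range_succ, Function.update_self, h3]
    congr 1
    refine sum_congr rfl fun k hk => ?_
    rw [Function.update_of_ne (by simp at hk; omega)]

theorem valid_zero (Y : ℕ → B) (s t : ℝ) : Valid Y 0 s t 0 :=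
  ⟨fun _ => 0, fun _ => Or.inl rfl, fun _ _ => rfl, by simp⟩

end

end Crest.Agent.R254
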