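import Mathlib
import Crest.Prelude.Def_Doubling
import Crest.Agent.R254.Defs

/-! The set is doubling with a universal constant, and its closure is compact. -/

set_option autoImplicit false

namespace Crest.Agent.R254

open Finset Crest.GeometryTopology

theorem cover_of_rel {X ι : Type*} [PseudoMetricSpace X] (S : Set X) (x : X) (hx : x ∈ S)
    (A : Set X) (hA : A ⊆ S) (r : ℝ) (T : Finset ι) (rel : X → ι → Prop)
    (h1 : ∀ P ∈ A, ∃ i ∈ T, rel P i)
    (h2 : ∀ P ∈ A, ∀ P' ∈ A, ∀ i, rel P i → rel P' i → dist P P' ≤ r) :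
    ∃ C : Finset X, (↑C : Set X) ⊆ S ∧ C.card ≤ T.card ∧
      A ⊆ ⋃ c ∈ C, Metric.closedBall c r := by
  classical
  let rep : ι → X := fun i => if h : ∃ P ∈ A, rel P i then h.choose else x
  refine ⟨T.image rep, ?_, card_image_le, ?_⟩
  · intro y hy
    simp only [coe_image, Set.mem_image] at hy
    obtain ⟨i, -, rfl⟩ := hy
    simp only [rep]
    split_ifs with h
    · exact hA h.choose_spec.1
    · exact hx
  · intro P hP
    obtain ⟨i, hi, hr⟩ := h1 P hP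
    have h : ∃ P ∈ A, rel P i := ⟨P, hP, hr⟩
    simp only [Set.mem_iUnion]
    refine ⟨rep i, mem_image_of_mem _ hi, ?_⟩
    simp only [rep, dif_pos h, Metric.mem_closedBall]
    exact h2 P hP _ h.choose_spec.1 i hr h.choose_spec.2

theorem doubling_twice {X : Type*} [PseudoMetricSpace X] {S : Set X} {Λ : ℕ}
    (h : DoublingConstLE S Λ) (x : X) (hx : x ∈ S) (r : ℝ) (hr : 0 < r) :
    ∃ C : Finset X, (↑C : Set X) ⊆ S ∧ C.card ≤ Λ * Λ ∧
      S ∩ Metric.closedBall x (2 * (2 * r)) ⊆ ⋃ c ∈ C, Metric.closedBall c r := by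
  classical
  obtain ⟨C, hC1, hC2, hC3⟩ := h x hx (2 * r) (by positivity)
  have : ∀ c, ∃ C' : Finset X, c ∈ S → (↑C' : Set X) ⊆ S ∧ C'.card ≤ Λ ∧
      S ∩ Metric.closedBall c (2 * r) ⊆ ⋃ c ∈ C', Metric.closedBall c r := by
    intro c
    by_cases hc : c ∈ S
    · obtain ⟨C', h'⟩ := h c hc r hr
      exact ⟨C', fun _ => h'⟩
    · exact ⟨∅, fun h' => absurd h' hc⟩
  choose f hf using this
  refine ⟨C.biUnion f, ?_, ?_, ?_⟩
  · intro y hy
    simp only [coe_biUnion, Set.mem_iUnion] at hy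
    obtain ⟨c, hc, hy⟩ := hy
    exact (hf c (hC1 hc)).1 hy
  · exact (card_biUnion_le_card_mul _ _ Λ fun c hc => (hf c (hC1 hc)).2.1).trans
      (Nat.mul_le_mul_right _ hC2)
  · intro y hy
    have := hC3 hy
    simp only [Set.mem_iUnion] at this ⊢
    obtain ⟨c, hc, hy'⟩ := this
    have := (hf c (hC1 hc)).2.2 ⟨hy.1, hy'⟩
    simp only [Set.mem_iUnion] at this
    obtain ⟨c', hc', hy''⟩ := this
    exact ⟨c', mem_biUnion.2 ⟨c, hc, hc'⟩, hy''⟩

theorem doubling_closure {X : Type*} [PseudoMetricSpace X] {S : Set X} {Λ : ℕ}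
    (h : DoublingConstLE S Λ) : DoublingConstLE (closure S) (Λ * Λ) := by
  intro x hx r hr
  obtain ⟨x', hx', hd⟩ := Metric.mem_closure_iff.1 hx r hr
  obtain ⟨C, hC1, hC2, hC3⟩ := doubling_twice h x' hx' r hr
  refine ⟨C, hC1.trans subset_closure, hC2, ?_⟩
  have hcl : IsClosed (⋃ c ∈ C, Metric.closedBall c r) :=
    C.finite_toSet.isClosed_biUnion fun _ _ => Metric.isClosed_closedBall
  rintro y ⟨hy1, hy2⟩
  refine hcl.closure_subset_iff.2 hC3 ?_
  rw [Metric.mem_closure_iff] at hy1 ⊢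
  intro ε hε
  obtain ⟨y', hy', hd'⟩ := hy1 (min ε r) (lt_min hε hr)
  refine ⟨y', ⟨hy', ?_⟩, hd'.trans_le (min_le_left _ _)⟩
  rw [Metric.mem_closedBall] at hy2 ⊢
  have := hd'.trans_le (min_le_right _ _)
  have h3 := dist_triangle4 y' y x x'
  rw [dist_comm y' y] at h3
  linarith

theorem totallyBounded_of_doubling {X : Type*} [PseudoMetricSpace X] {S : Set X} {Λ : ℕ}
    (h : DoublingConstLE S Λ) (x₀ : X) (hx₀ : x₀ ∈ S) (R : ℝ)
    (hR : S ⊆ Metric.closedBall x₀ R) : TotallyBounded S := by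
  have key : ∀ r : ℝ, 0 < r → ∀ k : ℕ, ∀ x ∈ S, ∃ C : Set X, C.Finite ∧
      S ∩ Metric.closedBall x (2 ^ k * r) ⊆ ⋃ c ∈ C, Metric.closedBall c r := by
    intro r hr k
    induction k with
    | zero => intro x _; exact ⟨{x}, Set.finite_singleton _, by simp⟩
    | succ k ih =>
      intro x hx
      obtain ⟨C, hC1, -, hC3⟩ := h x hx (2 ^ k * r) (by positivity)
      choose! f hf1 hf2 using ih
      refine ⟨⋃ c ∈ C, f c, C.finite_toSet.biUnion fun c hc => hf1 c (hC1 hc), ?_⟩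
      intro y hy
      have := hC3 (show y ∈ S ∩ Metric.closedBall x (2 * (2 ^ k * r)) by
        rwa [pow_succ', mul_assoc] at hy)
      simp only [Set.mem_iUnion] at this ⊢
      obtain ⟨c, hc, hy'⟩ := this
      have := hf2 c (hC1 hc) ⟨hy.1, hy'⟩
      simp only [Set.mem_iUnion] at this
      obtain ⟨c', hc', hy''⟩ := this
      exact ⟨c', ⟨c, hc, hc'⟩, hy''⟩
  rw [Metric.totallyBounded_iff]
  intro ε hε
  obtain ⟨k, hk⟩ := pow_unbounded_of_one_lt (R / (ε / 2)) (one_lt_two (α := ℝ))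
  rw [div_lt_iff₀ (by positivity)] at hk
  obtain ⟨C, hC1, hC2⟩ := key (ε / 2) (by positivity) k x₀ hx₀
  refine ⟨C, hC1, fun y hy => ?_⟩
  have := hC2 ⟨hy, Metric.closedBall_subset_closedBall hk.le (hR hy)⟩
  simp only [Set.mem_iUnion] at this ⊢
  obtain ⟨c, hc, hy'⟩ := this
  exact ⟨c, hc, Metric.closedBall_subset_ball (by linarith) hy'⟩

theorem window (W x₀ d : ℝ) (K : ℕ) (hW : 0 < W) (hd : d ≤ K * W) :
    ∃ U₀ : ℕ, ∀ (U : ℕ) (s : ℝ), |s - x₀| ≤ d → U * W ≤ s → s ≤ (U + 1) * W →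
      U ∈ Ico U₀ (U₀ + (2 * K + 2)) := by
  refine ⟨⌊(x₀ - d) / W - 1⌋₊, fun U s h1 h2 h3 => ?_⟩
  rw [abs_le] at h1
  rw [mem_Ico]
  constructor
  · refine Nat.floor_le_of_le ?_
    rw [sub_le_iff_le_add, div_le_iff₀ hW]
    linarith
  · have h4 := Nat.lt_floor_add_one ((x₀ - d) / W - 1)
    have h5 : (U : ℝ) ≤ (x₀ - d) / W + 2 * K := by
      rw [← sub_le_iff_le_add, le_div_iff₀ hW]
      linarith
    have : (U : ℝ) < ⌊(x₀ - d) / W - 1⌋₊ + (2 * K + 2) := by linarith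
    exact_mod_cast this

section
variable {B : Type*} [NormedAddCommGroup B] [NormedSpace ℝ B]

theorem tail_le {Y : ℕ → B} (hY4 : ∀ i, ‖Y i‖ ≤ 4) (c c' : ℕ → ℕ) (a J : ℕ)
    (h : ∀ k < a, c k = c' k) :
    ‖∑ l ∈ range J, rho l • Y (c l) - ∑ l ∈ range J, rho l • Y (c' l)‖ ≤ 16 * rho a := by
  rw [← sum_sub_distrib]
  refine (norm_sum_le _ _).trans ?_
  have h1 : ∑ l ∈ range J, ‖rho l • Y (c l) - rho l • Y (c' l)‖ =
      ∑ l ∈ Ico a J, ‖rho l • Y (c l) - rho l • Y (c' l)‖ := by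
    symm
    refine sum_subset (fun l hl => by simp only [mem_Ico, mem_range] at hl ⊢; omega) ?_
    intro l hl hl'
    simp only [mem_Ico, mem_range] at hl hl'
    rw [h l (by omega)]; simp
  rw [h1]
  have h2 : ∑ l ∈ Ico a J, ‖rho l • Y (c l) - rho l • Y (c' l)‖ ≤ ∑ l ∈ Ico a J, 8 * rho l := by
    refine sum_le_sum fun l _ => ?_
    rw [← smul_sub, norm_smul, Real.norm_eq_abs, abs_of_pos (rho_pos l)]
    have := norm_sub_le (Y (c l)) (Y (c' l))
    have := hY4 (c l)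
    have := hY4 (c' l)
    have := rho_pos l
    nlinarith
  rw [← mul_sum] at h2
  linarith [sum_rho_le a J]

theorem sep_le {Y : ℕ → B} (hY4 : ∀ i, ‖Y i‖ ≤ 4) (hY1 : ∀ i j, i ≠ j → 1 ≤ ‖Y i - Y j‖)
    (c c' : ℕ → ℕ) (a J : ℕ) (haJ : a < J) (h : ∀ k < a, c k = c' k) (hne : c a ≠ c' a) :
    rho a / 2 ≤ ‖∑ l ∈ range J, rho l • Y (c l) - ∑ l ∈ range J, rho l • Y (c' l)‖ := by
  have h1 := tail_le hY4 (Function.update c a (c' a)) c' (a + 1) J (fun k hk => by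
    by_cases hka : k = a
    · subst hka; simp
    · rw [Function.update_of_ne hka]; exact h k (by omega))
  have h2 : ∑ l ∈ range J, rho l • Y (c l) -
      ∑ l ∈ range J, rho l • Y (Function.update c a (c' a) l) = rho a • (Y (c a) - Y (c' a)) := by
    rw [← sum_sub_distrib, sum_eq_single a]
    · simp [smul_sub]
    · intro l _ hl; rw [Function.update_of_ne hl]; simp
    · intro hl; exact absurd (mem_range.2 haJ) hl
  have h3 : rho a ≤ ‖rho a • (Y (c a) - Y (c' a))‖ := by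
    rw [norm_smul, Real.norm_eq_abs, abs_of_pos (rho_pos a)]
    have := hY1 _ _ hne
    have := rho_pos a
    nlinarith
  rw [← h2] at h3
  have h4 := norm_sub_le_norm_sub_add_norm_sub (∑ l ∈ range J, rho l • Y (c l))
    (∑ l ∈ range J, rho l • Y (c' l)) (∑ l ∈ range J, rho l • Y (Function.update c a (c' a) l))
  rw [norm_sub_rev (∑ l ∈ range J, rho l • Y (c' l))] at h4
  have := rho_succ_le a
  have := rho_pos a
  linarith

theorem doubling_SS (e1 e2 : B) (he1 : ‖e1‖ ≤ 1) (he2 : ‖e2‖ ≤ 1) (Y : ℕ → B) (hY0 : Y 0 = 0)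
    (hY4 : ∀ i, ‖Y i‖ ≤ 4) (hY1 : ∀ i j, i ≠ j → 1 ≤ ‖Y i - Y j‖)
    (φ1 φ2 : B →L[ℝ] ℝ) (h1 : ∀ x, |φ1 x| ≤ ‖x‖) (h2 : ∀ x, |φ2 x| ≤ 2 * ‖x‖)
    (h11 : φ1 e1 = 1) (h12 : φ1 e2 = 0) (h21 : φ2 e1 = 0) (h22 : φ2 e2 = 1)
    (hY1' : ∀ i, φ1 (Y i) = 0) (hY2' : ∀ i, φ2 (Y i) = 0) :
    DoublingConstLE (SS e1 e2 Y) 2000000 := by
  classical
  intro x hx r hr
  have c1 : ∀ (s t : ℝ) (J : ℕ) (c : ℕ → ℕ),
      φ1 (s • e1 + t • e2 + ∑ l ∈ range J, rho l • Y (c l)) = s := by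
    intro s t J c
    simp [map_sum, h11, h12, hY1']
  have c2 : ∀ (s t : ℝ) (J : ℕ) (c : ℕ → ℕ),
      φ2 (s • e1 + t • e2 + ∑ l ∈ range J, rho l • Y (c l)) = t := by
    intro s t J c
    simp [map_sum, h21, h22, hY2']
  have hex : ∃ l, rho l ≤ 32 * r := by
    obtain ⟨l, hl⟩ := exists_nat_ge (1 / r)
    refine ⟨l, (rho_le l).trans ?_⟩
    have h3 : (l : ℝ) ≤ NN l := by exact_mod_cast (lt_NN l).le
    have h4 : (0 : ℝ) < NN l := by exact_mod_cast NN_pos l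
    rw [div_le_iff₀ hr] at hl
    rw [div_le_iff₀ (by positivity)]
    nlinarith
  set l₀ := Nat.find hex with hl₀
  have hl₀1 : rho l₀ ≤ 32 * r := Nat.find_spec hex
  have hl₀2 : ∀ l < l₀, 32 * r < rho l := fun l hl => not_le.1 (Nat.find_min hex hl)
  obtain ⟨U₁, hU₁⟩ := window (r / 5) (φ1 x) (2 * r) 10 (by positivity) (by push_cast; linarith)
  obtain ⟨U₂, hU₂⟩ := window (r / 5) (φ2 x) (4 * r) 20 (by positivity) (by push_cast; linarith)
  have hlab : ∃ L : Finset ℕ, L.card ≤ 1300 ∧ 0 ∈ L ∧ (r / 100 ≤ rho l₀ → ∀ s t i,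
      |s - φ1 x| ≤ 2 * r → |t - φ2 x| ≤ 4 * r → Lab l₀ s t i → i ∈ L) := by
    by_cases hc : r / 100 ≤ rho l₀
    · have hn : (1 : ℝ) ≤ nn l₀ := by exact_mod_cast nn_pos l₀
      have hρ := rho_pos l₀
      obtain ⟨U₃, hU₃⟩ := window (rho l₀) (φ1 x) (2 * r) 200 hρ (by push_cast; linarith)
      obtain ⟨U₄, hU₄⟩ := window (nn l₀ * rho l₀) (φ2 x) (4 * r) 400 (by positivity)
        (by push_cast; nlinarith)
      refine ⟨insert 0 ((Ico U₃ (U₃ + (2 * 200 + 2)) ∪ Ico U₄ (U₄ + (2 * 400 + 2))).image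
        fun U => U % mm l₀ + 1), ?_, mem_insert_self _ _, ?_⟩
      · refine (card_insert_le _ _).trans ?_
        have := (card_image_le (s := Ico U₃ (U₃ + (2 * 200 + 2)) ∪ Ico U₄ (U₄ + (2 * 400 + 2)))
          (f := fun U => U % mm l₀ + 1)).trans (card_union_le _ _)
        simp only [Nat.card_Ico] at this
        omega
      · intro _ s t i hs ht hi
        rcases hi with rfl | ⟨U, h3, h4, rfl⟩ | ⟨U, h3, h4, rfl⟩
        · exact mem_insert_self _ _
        · exact mem_insert_of_mem (mem_image_of_mem _ (mem_union_left _ (hU₃ U s hs h3 h4)))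
        · exact mem_insert_of_mem (mem_image_of_mem _ (mem_union_right _ (hU₄ U t ht h3 h4)))
    · exact ⟨{0}, by simp, by simp, fun h => absurd h hc⟩
  obtain ⟨L, hL1, hL2, hL3⟩ := hlab
  let rel : B → ℕ × ℕ × ℕ → Prop := fun P i =>
    ∃ (s t : ℝ) (J : ℕ) (c : ℕ → ℕ), (∀ l, J ≤ l → c l = 0) ∧
      P = s • e1 + t • e2 + ∑ l ∈ range J, rho l • Y (c l) ∧
      (i.1 * (r / 5) ≤ s ∧ s ≤ (i.1 + 1) * (r / 5)) ∧
      (i.2.1 * (r / 5) ≤ t ∧ t ≤ (i.2.1 + 1) * (r / 5)) ∧ (r / 100 ≤ rho l₀ → c l₀ = i.2.2)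
  have hcov := cover_of_rel (SS e1 e2 Y) x hx
    (SS e1 e2 Y ∩ Metric.closedBall x (2 * r)) Set.inter_subset_left r
    (Ico U₁ (U₁ + (2 * 10 + 2)) ×ˢ Ico U₂ (U₂ + (2 * 20 + 2)) ×ˢ L) rel ?_ ?_
  · obtain ⟨C, hC1, hC2, hC3⟩ := hcov
    refine ⟨C, hC1, hC2.trans ?_, hC3⟩
    simp only [card_product, Nat.card_Ico]
    have e1 : U₁ + (2 * 10 + 2) - U₁ = 22 := by omega
    have e2 : U₂ + (2 * 20 + 2) - U₂ = 42 := by omega
    rw [e1, e2]
    omega
  · rintro P ⟨⟨s, t, J, z, hs, ht, ⟨c, hc1, hc2, rfl⟩, rfl⟩, hP⟩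
    rw [Metric.mem_closedBall, dist_eq_norm] at hP
    have a1 : |s - φ1 x| ≤ 2 * r := by
      have := h1 (s • e1 + t • e2 + ∑ l ∈ range J, rho l • Y (c l) - x)
      rw [map_sub, c1] at this
      linarith
    have a2 : |t - φ2 x| ≤ 4 * r := by
      have := h2 (s • e1 + t • e2 + ∑ l ∈ range J, rho l • Y (c l) - x)
      rw [map_sub, c2] at this
      linarith
    have fl : ∀ s : ℝ, 0 ≤ s → (⌊s / (r / 5)⌋₊ : ℝ) * (r / 5) ≤ s ∧
        s ≤ ((⌊s / (r / 5)⌋₊ : ℝ) + 1) * (r / 5) := by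
      intro s hs
      have hr5 : 0 < r / 5 := by positivity
      constructor
      · rw [← le_div_iff₀ hr5]; exact Nat.floor_le (by positivity)
      · rw [← div_le_iff₀ hr5]; exact (Nat.lt_floor_add_one _).le
    refine ⟨(⌊s / (r / 5)⌋₊, ⌊t / (r / 5)⌋₊, if r / 100 ≤ rho l₀ then c l₀ else 0), ?_,
      s, t, J, c, hc2, rfl, fl s hs.1, fl t ht.1, fun h => by simp [h]⟩
    simp only [mem_product]
    refine ⟨hU₁ _ s a1 (fl s hs.1).1 (fl s hs.1).2, hU₂ _ t a2 (fl t ht.1).1 (fl t ht.1).2, ?_⟩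
    split_ifs with h
    · exact hL3 h s t _ a1 a2 (hc1 l₀)
    · exact hL2
  · rintro P ⟨-, hP⟩ P' ⟨-, hP'⟩ i ⟨s, t, J, c, hc, rfl, hs, ht, hi⟩
      ⟨s', t', J', c', hc', rfl, hs', ht', hi'⟩
    set J₀ := J + J' + l₀ with hJ₀
    rw [sum_pad hY0 hc (show J ≤ J₀ by omega)] at hP ⊢
    rw [sum_pad hY0 hc' (show J' ≤ J₀ by omega)] at hP' ⊢
    set z := ∑ l ∈ range J₀, rho l • Y (c l) with hz
    set z' := ∑ l ∈ range J₀, rho l • Y (c' l) with hz'
    have hd : ‖(s • e1 + t • e2 + z) - (s' • e1 + t' • e2 + z')‖ ≤ 4 * r := by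
      rw [← dist_eq_norm]
      rw [Metric.mem_closedBall] at hP hP'
      linarith [dist_triangle_right (s • e1 + t • e2 + z) (s' • e1 + t' • e2 + z') x]
    have a1 : |s - s'| ≤ 4 * r := by
      have := h1 ((s • e1 + t • e2 + z) - (s' • e1 + t' • e2 + z'))
      rw [map_sub, c1, c1] at this
      linarith
    have a2 : |t - t'| ≤ 8 * r := by
      have := h2 ((s • e1 + t • e2 + z) - (s' • e1 + t' • e2 + z'))
      rw [map_sub, c2, c2] at this
      linarith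
    have n1 : ‖(s - s') • e1‖ ≤ |s - s'| := by
      rw [norm_smul, Real.norm_eq_abs]
      nlinarith [abs_nonneg (s - s')]
    have n2 : ‖(t - t') • e2‖ ≤ |t - t'| := by
      rw [norm_smul, Real.norm_eq_abs]
      nlinarith [abs_nonneg (t - t')]
    have e : (s • e1 + t • e2 + z) - (s' • e1 + t' • e2 + z') =
        (s - s') • e1 + (t - t') • e2 + (z - z') := by simp only [sub_smul]; abel
    have a3 : ‖z - z'‖ ≤ 16 * r := by
      have e' : z - z' = ((s • e1 + t • e2 + z) - (s' • e1 + t' • e2 + z')) -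
        (s - s') • e1 - (t - t') • e2 := by rw [e]; abel
      rw [e']
      refine (norm_sub_le _ _).trans ?_
      have := norm_sub_le ((s • e1 + t • e2 + z) - (s' • e1 + t' • e2 + z')) ((s - s') • e1)
      linarith
    have a4 : ∀ k < l₀, c k = c' k := by
      intro k
      induction k using Nat.strong_induction_on with
      | _ k ih =>
        intro hk
        by_contra hne
        have := sep_le hY4 hY1 c c' k J₀ (by omega) (fun k' hk' => ih k' hk' (by omega)) hne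
        have := hl₀2 k hk
        linarith
    have a5 : ‖z - z'‖ ≤ 3 / 5 * r := by
      by_cases hc : r / 100 ≤ rho l₀
      · have := tail_le hY4 c c' (l₀ + 1) J₀ (fun k hk => by
          by_cases hk' : k = l₀
          · rw [hk', hi hc, hi' hc]
          · exact a4 k (by omega))
        have := rho_succ_le l₀
        linarith
      · have := tail_le hY4 c c' l₀ J₀ a4
        linarith
    have a6 : |s - s'| ≤ r / 5 := by rw [abs_le]; constructor <;> linarith [hs.1, hs.2, hs'.1, hs'.2]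
    have a7 : |t - t'| ≤ r / 5 := by rw [abs_le]; constructor <;> linarith [ht.1, ht.2, ht'.1, ht'.2]
    rw [dist_eq_norm, e]
    refine (norm_add_le _ _).trans ?_
    have := norm_add_le ((s - s') • e1) ((t - t') • e2)
    linarith

theorem SS_bounded (e1 e2 : B) (he1 : ‖e1‖ ≤ 1) (he2 : ‖e2‖ ≤ 1) (Y : ℕ → B) (hY0 : Y 0 = 0)
    (hY4 : ∀ i, ‖Y i‖ ≤ 4) : SS e1 e2 Y ⊆ Metric.closedBall 0 (2 + 16 * rho 0) := by
  rintro P ⟨s, t, J, z, hs, ht, ⟨c, -, -, rfl⟩, rfl⟩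
  have h1 := tail_le hY4 c (fun _ => 0) 0 J (fun k hk => absurd hk (Nat.not_lt_zero _))
  simp only [hY0, smul_zero, sum_const_zero, sub_zero] at h1
  rw [mem_closedBall_zero_iff]
  refine (norm_add_le _ _).trans ?_
  have h2 := norm_add_le (s • e1) (t • e2)
  rw [norm_smul, norm_smul, Real.norm_eq_abs, Real.norm_eq_abs, abs_of_nonneg hs.1,
    abs_of_nonneg ht.1] at h2
  nlinarith [hs.1, hs.2, ht.1, ht.2, norm_nonneg e1, norm_nonneg e2]

theorem zero_mem_SS (e1 e2 : B) (Y : ℕ → B) : (0 : B) ∈ SS e1 e2 Y :=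
  ⟨0, 0, 0, 0, by simp, by simp, valid_zero Y 0 0, by simp⟩

end

end Crest.Agent.R254
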