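import Mathlib
import Crest.Agent.R254.Basic

/-! Energies of sheets on cells, and the refinement inequalities. -/

set_option autoImplicit false

namespace Crest.Agent.R254

open Finset

section
variable {E : Type*} [NormedAddCommGroup E]

/-- Horizontal energy of `G` on the square with corner `(s, t)` and side `a`. -/
noncomputable def en (G : ℝ → ℝ → E) (s t a : ℝ) : ℝ :=
  ∫ y in (0 : ℝ)..a, ‖G (s + a) (t + y) - G s (t + y)‖ ^ 2

/-- Lipschitz condition in two real variables. -/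
def Lip2 (G : ℝ → ℝ → E) (D : ℝ) : Prop :=
  ∀ s t s' t', ‖G s t - G s' t'‖ ≤ D * (|s - s'| + |t - t'|)

theorem Lip2.cont {G : ℝ → ℝ → E} {D : ℝ} (hG : Lip2 G D) (s : ℝ) : Continuous (G s) := by
  have : LipschitzWith (Real.toNNReal D) (G s) := by
    refine LipschitzWith.of_dist_le' fun y y' => ?_
    have := hG s y s y'
    simpa [dist_eq_norm, Real.dist_eq] using this
  exact this.continuous

theorem Lip2.swap {G : ℝ → ℝ → E} {D : ℝ} (hG : Lip2 G D) : Lip2 (fun t s => G s t) D := by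
  intro s t s' t'
  have := hG t s t' s'
  rwa [add_comm] at this

theorem Lip2.sub {G G' : ℝ → ℝ → E} {D : ℝ} (hG : Lip2 G D) (hG' : Lip2 G' D) :
    Lip2 (fun s t => G s t - G' s t) (2 * D) := by
  intro s t s' t'
  have h1 := hG s t s' t'
  have h2 := hG' s t s' t'
  have : G s t - G' s t - (G s' t' - G' s' t') = (G s t - G s' t') - (G' s t - G' s' t') := by abel
  simp only [this]
  linarith [norm_sub_le (G s t - G s' t') (G' s t - G' s' t')]

theorem Lip2.horiz {G : ℝ → ℝ → E} {D : ℝ} (hG : Lip2 G D) (s a y : ℝ) (ha : 0 ≤ a) :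
    ‖G (s + a) y - G s y‖ ≤ D * a := by
  have := hG (s + a) y s y
  simpa [abs_of_nonneg ha] using this

theorem en_nonneg (G : ℝ → ℝ → E) (s t a : ℝ) (ha : 0 ≤ a) : 0 ≤ en G s t a :=
  intervalIntegral.integral_nonneg ha fun _ _ => by positivity

theorem cont_sq {G G' : ℝ → E} (hG : Continuous G) (hG' : Continuous G') (t : ℝ) :
    Continuous fun y => ‖G (t + y) - G' (t + y)‖ ^ 2 := by fun_prop

theorem en_le {G : ℝ → ℝ → E} {D : ℝ} (hG : Lip2 G D) (s t a : ℝ) (ha : 0 ≤ a) :
    en G s t a ≤ D ^ 2 * a ^ 3 := by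
  have h1 : en G s t a ≤ ∫ _ in (0 : ℝ)..a, (D * a) ^ 2 := by
    refine intervalIntegral.integral_mono_on ha
      ((cont_sq (hG.cont _) (hG.cont _) t).intervalIntegrable _ _) (by simp) fun y _ => ?_
    exact pow_le_pow_left₀ (norm_nonneg _) (hG.horiz s a _ ha) 2
  simp only [intervalIntegral.integral_const, sub_zero, smul_eq_mul] at h1
  nlinarith

theorem int_split (φ : ℝ → ℝ) (hφ : Continuous φ) (h : ℝ) (M : ℕ) :
    ∫ y in (0 : ℝ)..(M * h), φ y = ∑ c ∈ range M, ∫ y in (0 : ℝ)..h, φ (c * h + y) := by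
  have := intervalIntegral.sum_integral_adjacent_intervals (μ := MeasureTheory.volume) (f := φ)
    (a := fun c : ℕ => (c : ℝ) * h) (n := M) (fun k _ => hφ.intervalIntegrable _ _)
  simp only [Nat.cast_zero, zero_mul] at this
  rw [← this]
  refine sum_congr rfl fun c _ => ?_
  rw [intervalIntegral.integral_comp_add_left]
  congr 1
  · simp
  · push_cast; ring

theorem sum_int_ge (φ : ℝ → ℝ) (Φ : ℕ → ℝ → ℝ) (hφ : Continuous φ) (hΦ : ∀ c, Continuous (Φ c))
    (α β h : ℝ) (hh : 0 ≤ h) (M : ℕ)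
    (H : ∀ c < M, ∀ y, α * φ (c * h + y) - β ≤ Φ c y) :
    α * (∫ y in (0 : ℝ)..(M * h), φ y) - β * (M * h) ≤
      ∑ c ∈ range M, ∫ y in (0 : ℝ)..h, Φ c y := by
  rw [int_split φ hφ, mul_sum]
  have : β * (M * h) = ∑ c ∈ range M, β * h := by simp; ring
  rw [this, ← sum_sub_distrib]
  refine sum_le_sum fun c hc => ?_
  have hc' : Continuous fun y => φ (c * h + y) := by fun_prop
  have e : α * (∫ y in (0 : ℝ)..h, φ (c * h + y)) - β * h =
      ∫ y in (0 : ℝ)..h, (α * φ (c * h + y) - β) := by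
    rw [intervalIntegral.integral_sub ((hc'.const_mul α).intervalIntegrable _ _) (by simp),
      intervalIntegral.integral_const_mul]
    simp [mul_comm]
  rw [e]
  refine intervalIntegral.integral_mono_on hh
    (((hc'.const_mul α).sub continuous_const).intervalIntegrable _ _)
    ((hΦ c).intervalIntegrable _ _) fun y _ => H c (mem_range.1 hc) y

/-- Total energy over the `M × M` fine cells; the sheet may depend on the cell. -/
noncomputable def tot (G : ℕ → ℕ → ℝ → ℝ → E) (s t h : ℝ) (M : ℕ) : ℝ :=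
  ∑ c ∈ range M, ∑ b ∈ range M, en (G b c) (s + b * h) (t + c * h) h

/-- The integrand of the total energy in row `c`. -/
noncomputable def row (G : ℕ → ℕ → ℝ → ℝ → E) (s t h : ℝ) (M c : ℕ) (y : ℝ) : ℝ :=
  ∑ b ∈ range M, ‖G b c (s + ((b + 1 : ℕ) : ℝ) * h) (t + (c * h + y)) -
    G b c (s + b * h) (t + (c * h + y))‖ ^ 2

theorem row_cont {G : ℕ → ℕ → ℝ → ℝ → E} (hG : ∀ b c s, Continuous (G b c s)) (s t h : ℝ)
    (M c : ℕ) : Continuous (row G s t h M c) := by
  unfold row
  refine continuous_finsetSum _ fun b _ => ?_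
  have h1 := hG b c (s + ((b + 1 : ℕ) : ℝ) * h)
  have h2 := hG b c (s + b * h)
  fun_prop

theorem tot_eq {G : ℕ → ℕ → ℝ → ℝ → E} (hG : ∀ b c s, Continuous (G b c s)) (s t h : ℝ) (M : ℕ) :
    tot G s t h M = ∑ c ∈ range M, ∫ y in (0 : ℝ)..h, row G s t h M c y := by
  unfold tot row
  refine sum_congr rfl fun c _ => ?_
  rw [intervalIntegral.integral_finsetSum]
  · refine sum_congr rfl fun b _ => ?_
    unfold en
    congr 1
    ext y
    have e1 : s + (b : ℝ) * h + h = s + ((b + 1 : ℕ) : ℝ) * h := by push_cast; ring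
    rw [e1, add_assoc t]
  · intro b _
    have h1 := hG b c (s + ((b + 1 : ℕ) : ℝ) * h)
    have h2 := hG b c (s + b * h)
    refine Continuous.intervalIntegrable ?_ _ _
    fun_prop

theorem tot_nonneg (G : ℕ → ℕ → ℝ → ℝ → E) (s t h : ℝ) (hh : 0 ≤ h) (M : ℕ) :
    0 ≤ tot G s t h M :=
  sum_nonneg fun _ _ => sum_nonneg fun _ _ => en_nonneg _ _ _ _ hh

/-- Jensen: refining the cell does not lower the average energy. -/
theorem jensen_en {G : ℝ → ℝ → E} {D : ℝ} (hG : Lip2 G D) (s t h : ℝ) (hh : 0 ≤ h) (M : ℕ) :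
    en G s t (M * h) ≤ M * tot (fun _ _ => G) s t h M := by
  rw [tot_eq (fun _ _ s => hG.cont s), mul_sum]
  simp only [← intervalIntegral.integral_const_mul]
  have := sum_int_ge (fun y => ‖G (s + M * h) (t + y) - G s (t + y)‖ ^ 2)
    (fun c y => M * row (fun _ _ => G) s t h M c y) (cont_sq (hG.cont _) (hG.cont _) t)
    (fun c => (row_cont (fun _ _ s => hG.cont s) s t h M c).const_mul _) 1 0 h hh M ?_
  · simpa [en] using this
  · intro c _ y
    have := tele_sq (fun l : ℕ => G (s + l * h) (t + (c * h + y))) M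
    simpa [row] using this

/-- Passing to sheets lifted along strips transverse to the direction costs little. -/
theorem loss_en {G : ℝ → ℝ → E} {G1 : ℕ → ℝ → ℝ → E} {D K : ℝ} (hG : Lip2 G D)
    (hG1 : ∀ k, Lip2 (G1 k) D) (hK : ∀ k s t, ‖G1 k s t - G s t‖ ≤ K)
    (s t h : ℝ) (hh : 0 ≤ h) (M' q : ℕ) (hq : 0 < q) :
    en G s t ((M' * q : ℕ) * h) - 4 * D * K * h * M' * (M' * q : ℕ) * ((M' * q : ℕ) * h) ≤
      (M' * q : ℕ) * tot (fun b _ => G1 (b / q)) s t h (M' * q) := by
  rw [tot_eq (fun b _ s => (hG1 _).cont s), mul_sum]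
  simp only [← intervalIntegral.integral_const_mul]
  have := sum_int_ge (fun y => ‖G (s + (M' * q : ℕ) * h) (t + y) - G s (t + y)‖ ^ 2)
    (fun c y => (M' * q : ℕ) * row (fun b _ => G1 (b / q)) s t h (M' * q) c y)
    (cont_sq (hG.cont _) (hG.cont _) t)
    (fun c => (row_cont (fun b _ s => (hG1 _).cont s) s t h (M' * q) c).const_mul _) 1
    (4 * D * K * h * M' * (M' * q : ℕ)) h hh (M' * q) ?_
  · simpa [en] using this
  · intro c _ y
    set Y := t + (c * h + y) with hY
    have h1 := tele_sq (fun l : ℕ => G (s + (l * q : ℕ) * h) Y) M'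
    simp only [zero_mul, Nat.cast_zero, add_zero] at h1
    have h2 : ∀ κ : ℕ, ‖G (s + ((κ + 1) * q : ℕ) * h) Y - G (s + (κ * q : ℕ) * h) Y‖ ^ 2 -
        4 * D * K * h * q ≤ q * ∑ l ∈ range q,
          ‖G1 ((κ * q + l) / q) (s + ((κ * q + l + 1 : ℕ) : ℝ) * h) Y -
            G1 ((κ * q + l) / q) (s + (κ * q + l : ℕ) * h) Y‖ ^ 2 := by
      intro κ
      have e : ∀ l ∈ range q, ‖G1 ((κ * q + l) / q) (s + ((κ * q + l + 1 : ℕ) : ℝ) * h) Y -
            G1 ((κ * q + l) / q) (s + (κ * q + l : ℕ) * h) Y‖ ^ 2 =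
          ‖G1 κ (s + ((κ * q + (l + 1) : ℕ) : ℝ) * h) Y -
            G1 κ (s + (κ * q + l : ℕ) * h) Y‖ ^ 2 := by
        intro l hl
        have : (κ * q + l) / q = κ := by
          rw [add_comm, Nat.add_mul_div_right _ _ hq, Nat.div_eq_of_lt (mem_range.1 hl), zero_add]
        rw [this, add_assoc]
      rw [sum_congr rfl e]
      have h3 := tele_sq (fun l : ℕ => G1 κ (s + (κ * q + l : ℕ) * h) Y) q
      refine le_trans ?_ h3
      have e2 : κ * q + q = (κ + 1) * q := by ring
      simp only [add_zero, e2]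
      set s1 := s + ((κ + 1) * q : ℕ) * h
      set s0 := s + (κ * q : ℕ) * h
      have h4 := norm_add_sq_ge (G s1 Y - G s0 Y) ((G1 κ s1 Y - G s1 Y) - (G1 κ s0 Y - G s0 Y))
      have e3 : G s1 Y - G s0 Y + ((G1 κ s1 Y - G s1 Y) - (G1 κ s0 Y - G s0 Y)) =
        G1 κ s1 Y - G1 κ s0 Y := by abel
      rw [e3] at h4
      have h5 : ‖G s1 Y - G s0 Y‖ ≤ D * (q * h) := by
        have : s1 = s0 + q * h := by simp only [s1, s0]; push_cast; ring
        rw [this]
        exact hG.horiz _ _ _ (by positivity)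
      have h6 : ‖(G1 κ s1 Y - G s1 Y) - (G1 κ s0 Y - G s0 Y)‖ ≤ 2 * K := by
        linarith [norm_sub_le (G1 κ s1 Y - G s1 Y) (G1 κ s0 Y - G s0 Y), hK κ s1 Y, hK κ s0 Y]
      have h7 : ‖G s1 Y - G s0 Y‖ * ‖(G1 κ s1 Y - G s1 Y) - (G1 κ s0 Y - G s0 Y)‖ ≤
          (D * (q * h)) * (2 * K) :=
        mul_le_mul h5 h6 (norm_nonneg _) ((norm_nonneg _).trans h5)
      nlinarith
    have h8 := sum_le_sum (s := range M') fun κ _ => h2 κ
    rw [sum_sub_distrib, ← mul_sum (range M') _ (q : ℝ)] at h8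
    simp only [sum_const, card_range, nsmul_eq_mul] at h8
    simp only [row, ← hY]
    rw [sum_range_mul']
    have h9 := mul_le_mul_of_nonneg_left h8 (Nat.cast_nonneg (α := ℝ) M')
    push_cast at h1 h9 ⊢
    nlinarith

end

section
variable {E : Type*} [NormedAddCommGroup E] [InnerProductSpace ℝ E]

/-- The parallelogram gain for sheets lifted along strips parallel to the direction. -/
theorem par_en {G : ℝ → ℝ → E} {G1 : ℕ → ℝ → ℝ → E} {D K : ℝ} (hG : Lip2 G D)
    (hG1 : ∀ k, Lip2 (G1 k) D) (hK : ∀ k s t, ‖G1 k s t - G s t‖ ≤ K)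
    (s t h : ℝ) (hh : 0 ≤ h) (M : ℕ) :
    2 * en G s t (M * h) - 4 * D * K * (M * h) * (M * h) +
      M / 2 * tot (fun _ c s t => G1 c s t - G s t) s t h M ≤
      M * (tot (fun _ _ => G) s t h M + tot (fun _ c => G1 c) s t h M) := by
  have c0 : ∀ (_ _ : ℕ) s, Continuous (G s) := fun _ _ s => hG.cont s
  have c1 : ∀ (_ c : ℕ) s, Continuous (G1 c s) := fun _ c s => (hG1 c).cont s
  have c2 : ∀ (_ c : ℕ) s, Continuous (fun t => G1 c s t - G s t) :=
    fun _ c s => ((hG1 c).sub hG).cont s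
  rw [tot_eq c0, tot_eq c1, tot_eq (G := fun _ c s t => G1 c s t - G s t) c2]
  have r0 := row_cont c0 s t h M
  have r1 := row_cont c1 s t h M
  have r2 := row_cont (G := fun _ c s t => G1 c s t - G s t) c2 s t h M
  have := sum_int_ge (fun y => ‖G (s + M * h) (t + y) - G s (t + y)‖ ^ 2)
    (fun c y => M * (row (fun _ _ => G) s t h M c y + row (fun _ c => G1 c) s t h M c y) -
      M / 2 * row (fun _ c s t => G1 c s t - G s t) s t h M c y)
    (cont_sq (hG.cont _) (hG.cont _) t)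
    (fun c => (((r0 c).add (r1 c)).const_mul _).sub ((r2 c).const_mul _)) 2
    (4 * D * K * (M * h)) h hh M ?_
  · have e : ∀ c ∈ range M, ∫ y in (0 : ℝ)..h,
        (M * (row (fun _ _ => G) s t h M c y + row (fun _ c => G1 c) s t h M c y) -
          M / 2 * row (fun _ c s t => G1 c s t - G s t) s t h M c y) =
        M * ((∫ y in (0 : ℝ)..h, row (fun _ _ => G) s t h M c y) +
          ∫ y in (0 : ℝ)..h, row (fun _ c => G1 c) s t h M c y) -
          M / 2 * ∫ y in (0 : ℝ)..h, row (fun _ c s t => G1 c s t - G s t) s t h M c y := by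
      intro c _
      rw [intervalIntegral.integral_sub, intervalIntegral.integral_const_mul,
        intervalIntegral.integral_const_mul, intervalIntegral.integral_add]
      · exact (r0 c).intervalIntegrable _ _
      · exact (r1 c).intervalIntegrable _ _
      · exact (((r0 c).add (r1 c)).const_mul _).intervalIntegrable _ _
      · exact ((r2 c).const_mul _).intervalIntegrable _ _
    rw [sum_congr rfl e, sum_sub_distrib, ← mul_sum, ← mul_sum, sum_add_distrib] at this
    unfold en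
    linarith
  · intro c _ y
    set Y := t + (c * h + y) with hY
    have h1 := par_seq (fun l : ℕ => G (s + l * h) Y) (fun l : ℕ => G1 c (s + l * h) Y) M
    simp only [zero_mul, Nat.cast_zero, add_zero] at h1
    have h5 : ‖G (s + M * h) Y - G s Y‖ ≤ D * (M * h) := hG.horiz _ _ _ (by positivity)
    have h6 : ‖(G1 c (s + M * h) Y - G (s + M * h) Y) - (G1 c s Y - G s Y)‖ ≤ 2 * K := by
      linarith [norm_sub_le (G1 c (s + M * h) Y - G (s + M * h) Y) (G1 c s Y - G s Y),
        hK c (s + M * h) Y, hK c s Y]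
    have h7 := mul_le_mul h5 h6 (norm_nonneg _) ((norm_nonneg _).trans h5)
    simp only [row, ← hY]
    rw [sum_add_distrib] at h1
    nlinarith

end

end Crest.Agent.R254
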