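import Mathlib

/-! A plane and a separated sequence transverse to it, in any infinite-dimensional normed space. -/

set_option autoImplicit false

namespace Crest.Agent.R254

theorem not_finiteDimensional_ker {B : Type*} [NormedAddCommGroup B] [NormedSpace ℝ B]
    {F : Type*} [AddCommGroup F] [Module ℝ F] [FiniteDimensional ℝ F]
    (hB : ¬ FiniteDimensional ℝ B) (φ : B →ₗ[ℝ] F) :
    ¬ FiniteDimensional ℝ (LinearMap.ker φ) := by
  intro h
  apply hB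
  have h1 : FiniteDimensional ℝ (B ⧸ LinearMap.ker φ) :=
    (LinearMap.quotKerEquivRange φ).symm.finiteDimensional
  exact Module.Finite.of_submodule_quotient (LinearMap.ker φ)

theorem exists_unit {B : Type*} [NormedAddCommGroup B] [NormedSpace ℝ B] (W : Submodule ℝ B)
    (hW : ¬ FiniteDimensional ℝ W) : ∃ e ∈ W, ‖e‖ = 1 := by
  have : Nontrivial W := by
    by_contra h
    rw [not_nontrivial_iff_subsingleton] at h
    exact hW inferInstance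
  obtain ⟨e, he⟩ := exists_norm_eq W (c := 1) zero_le_one
  exact ⟨e, e.2, he⟩

theorem exists_frame {B : Type*} [NormedAddCommGroup B] [NormedSpace ℝ B]
    (hB : ¬ FiniteDimensional ℝ B) :
    ∃ (e1 e2 : B) (Y : ℕ → B) (φ1 φ2 : B →L[ℝ] ℝ), ‖e1‖ ≤ 1 ∧ ‖e2‖ ≤ 1 ∧ Y 0 = 0 ∧
      (∀ i, ‖Y i‖ ≤ 4) ∧ (∀ i j, i ≠ j → 1 ≤ ‖Y i - Y j‖) ∧ (∀ x, |φ1 x| ≤ ‖x‖) ∧
      (∀ x, |φ2 x| ≤ 2 * ‖x‖) ∧ φ1 e1 = 1 ∧ φ1 e2 = 0 ∧ φ2 e1 = 0 ∧ φ2 e2 = 1 ∧
      (∀ i, φ1 (Y i) = 0) ∧ (∀ i, φ2 (Y i) = 0) := by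
  obtain ⟨e1, -, he1⟩ := exists_unit (⊤ : Submodule ℝ B)
    (fun h => hB (Submodule.topEquiv (R := ℝ) (M := B)).finiteDimensional)
  obtain ⟨φ1, hφ1, hφ1e⟩ := exists_dual_vector'' ℝ e1
  obtain ⟨e2, he2', he2⟩ := exists_unit _ (not_finiteDimensional_ker hB φ1.toLinearMap)
  obtain ⟨ψ, hψ, hψe⟩ := exists_dual_vector'' ℝ e2
  have b1 : ∀ x, |φ1 x| ≤ ‖x‖ := fun x => by
    have := φ1.le_opNorm x
    rw [Real.norm_eq_abs] at this
    nlinarith [norm_nonneg x]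
  have b2 : ∀ x, |ψ x| ≤ ‖x‖ := fun x => by
    have := ψ.le_opNorm x
    rw [Real.norm_eq_abs] at this
    nlinarith [norm_nonneg x]
  have h11 : φ1 e1 = 1 := by simpa [he1] using hφ1e
  have h12 : φ1 e2 = 0 := he2'
  have h22 : ψ e2 = 1 := by simpa [he2] using hψe
  let φ2 : B →L[ℝ] ℝ := ψ - (ψ e1) • φ1
  obtain ⟨f, hf1, hf2⟩ := exists_seq_norm_le_one_le_norm_sub' (𝕜 := ℝ) (c := 3 / 2) (R := 2)
    (by rw [Real.norm_eq_abs, abs_of_pos] <;> norm_num)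
    (by rw [Real.norm_eq_abs, abs_of_pos] <;> norm_num)
    (not_finiteDimensional_ker hB (φ1.toLinearMap.prod φ2.toLinearMap))
  have hk : ∀ i, φ1 (f i) = 0 ∧ φ2 (f i) = 0 := fun i => by
    have := (f i).2
    rw [LinearMap.mem_ker] at this
    exact ⟨congrArg Prod.fst this, congrArg Prod.snd this⟩
  refine ⟨e1, e2, fun i => (f i : B) - f 0, φ1, φ2, he1.le, he2.le, by simp, fun i => ?_,
    fun i j hij => ?_, b1, fun x => ?_, h11, h12, by simp [φ2, h11], by simp [φ2, h12, h22],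
    fun i => ?_, fun i => ?_⟩
  · have h1 : ‖(f i : B)‖ ≤ 2 := hf1 i
    have h2 : ‖(f 0 : B)‖ ≤ 2 := hf1 0
    linarith [norm_sub_le (f i : B) (f 0)]
  · have h1 : 1 ≤ ‖((f i - f j : _) : B)‖ := hf2 hij
    simpa using h1
  · have h1 := b2 x
    have h2 := b1 x
    have h3 := b2 e1
    rw [he1] at h3
    have : φ2 x = ψ x - ψ e1 * φ1 x := by simp [φ2]
    rw [this]
    refine (abs_sub _ _).trans ?_
    rw [abs_mul]
    nlinarith [abs_nonneg (ψ e1), abs_nonneg (φ1 x)]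
  · rw [map_sub, (hk i).1, (hk 0).1, sub_zero]
  · rw [map_sub, (hk i).2, (hk 0).2, sub_zero]

end Crest.Agent.R254
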