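import Mathlib
import Crest.Agent.R254.Energy

/-! The pigeonhole inequality for energies and the dichotomy step. -/

set_option autoImplicit false

namespace Crest.Agent.R254

open Finset

/-- The label of the fine cell `b` when strips consist of `p` fine cells. -/
def lab (m p b : ℕ) : ℕ := b / p % m + 1

theorem lab_eq (m p β u b₀ : ℕ) (hu : u < m) (hb : b₀ < p) :
    lab m p ((β * m + u) * p + b₀) = u + 1 := by
  unfold lab
  have hp : 0 < p := by omega
  rw [add_comm _ b₀, Nat.add_mul_div_right _ _ hp, Nat.div_eq_of_lt hb, zero_add, add_comm (β * m),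
    Nat.add_mul_mod_self_right, Nat.mod_eq_of_lt hu]

section
variable {E : Type*} [NormedAddCommGroup E]

theorem pig_en (Sh : ℕ → ℝ → ℝ → E) (D K δ : ℝ) (hD : 0 ≤ D) (hδ : 0 ≤ δ)
    (hL : ∀ i, Lip2 (Sh i) D) (hK : ∀ i s t, ‖Sh i s t - Sh 0 s t‖ ≤ K)
    (m p q R' R M : ℕ) (hM1 : M = R' * (m * p)) (hM2 : M = R * (m * q))
    (s t h : ℝ) (hh : 0 ≤ h) (hhδ : 4 * D * h ≤ δ)
    (hpack : ∀ x : ℕ → E, (∀ i, ‖x i‖ ≤ K) → ∃ u < m, ∃ v < m, u ≠ v ∧ ‖x u - x v‖ ≤ δ)
    (hsep : ∀ b < M, ∀ c < M, lab m p b ≠ lab m q c →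
      5 * δ ≤ ‖Sh (lab m q c) (s + b * h) (t + c * h) - Sh (lab m p b) (s + b * h) (t + c * h)‖) :
    (R' : ℝ) * p * R * q * δ ^ 2 * h ≤
      (p : ℝ) * (m * p) * tot (fun _ c s t => Sh (lab m q c) s t - Sh 0 s t) s t h M +
      (q : ℝ) * (m * q) * tot (fun _ b t s => Sh (lab m p b) s t - Sh 0 s t) t s h M := by
  have L1 : ∀ i, Lip2 (fun s t => Sh i s t - Sh 0 s t) (2 * D) := fun i => (hL i).sub (hL 0)
  have c1 : ∀ (_ c : ℕ) s, Continuous (fun t => Sh (lab m q c) s t - Sh 0 s t) :=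
    fun _ c s => (L1 _).cont s
  have c2 : ∀ (_ b : ℕ) t, Continuous (fun s => Sh (lab m p b) s t - Sh 0 s t) :=
    fun _ b t => (L1 _).swap.cont t
  rw [tot_eq (G := fun _ c s t => Sh (lab m q c) s t - Sh 0 s t) c1,
    tot_eq (G := fun _ b t s => Sh (lab m p b) s t - Sh 0 s t) c2]
  have r1 := row_cont (G := fun _ c s t => Sh (lab m q c) s t - Sh 0 s t) c1 s t h M
  have r2 := row_cont (G := fun _ b t s => Sh (lab m p b) s t - Sh 0 s t) c2 t s h M
  rw [← intervalIntegral.integral_finsetSum (fun c _ => (r1 c).intervalIntegrable _ _),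
    ← intervalIntegral.integral_finsetSum (fun c _ => (r2 c).intervalIntegrable _ _),
    ← intervalIntegral.integral_const_mul, ← intervalIntegral.integral_const_mul]
  have k1 : Continuous fun y => (p : ℝ) * (m * p) * ∑ c ∈ range M,
      row (fun _ c s t => Sh (lab m q c) s t - Sh 0 s t) s t h M c y :=
    (continuous_finsetSum _ fun c _ => r1 c).const_mul _
  have k2 : Continuous fun y => (q : ℝ) * (m * q) * ∑ c ∈ range M,
      row (fun _ b t s => Sh (lab m p b) s t - Sh 0 s t) t s h M c y :=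
    (continuous_finsetSum _ fun c _ => r2 c).const_mul _
  rw [← intervalIntegral.integral_add (k1.intervalIntegrable _ _) (k2.intervalIntegrable _ _)]
  have e : (R' : ℝ) * p * R * q * δ ^ 2 * h = ∫ _ in (0 : ℝ)..h, (R' : ℝ) * p * R * q * δ ^ 2 := by
    simp only [intervalIntegral.integral_const, sub_zero, smul_eq_mul]; ring
  rw [e]
  refine intervalIntegral.integral_mono_on hh (by simp) ((k1.add k2).intervalIntegrable _ _)
    fun y hy => ?_
  set P : ℕ → ℕ → E := fun b c => Sh (lab m q c) (s + b * h) (t + (c * h + y)) -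
    Sh 0 (s + b * h) (t + (c * h + y)) with hP
  set Q : ℕ → ℕ → E := fun b c => Sh (lab m p b) (s + (b * h + y)) (t + c * h) -
    Sh 0 (s + (b * h + y)) (t + c * h) with hQ
  have key := count_lemma (fun b c => ‖P (b + 1) c - P b c‖ ^ 2) (fun b c => ‖Q b (c + 1) - Q b c‖ ^ 2)
    m p q R' R (δ ^ 2) ?_
  · rw [← hM1, ← hM2] at key
    exact key
  intro β hβ b₀ hb₀ κ hκ c₀ hc₀
  have hy0 : |y| ≤ h := by rw [abs_of_nonneg hy.1]; exact hy.2
  have a1 : ∀ b c : ℕ, ‖P b c - (Sh (lab m q c) (s + b * h) (t + c * h) -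
      Sh 0 (s + b * h) (t + c * h))‖ ≤ 2 * D * h := by
    intro b c
    have := L1 (lab m q c) (s + b * h) (t + (c * h + y)) (s + b * h) (t + c * h)
    have e1 : t + (c * h + y) - (t + c * h) = y := by ring
    simp only [sub_self, abs_zero, zero_add, e1] at this
    exact this.trans (by gcongr)
  have a2 : ∀ b c : ℕ, ‖Q b c - (Sh (lab m p b) (s + b * h) (t + c * h) -
      Sh 0 (s + b * h) (t + c * h))‖ ≤ 2 * D * h := by
    intro b c
    have := L1 (lab m p b) (s + (b * h + y)) (t + c * h) (s + b * h) (t + c * h)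
    have e1 : s + (b * h + y) - (s + b * h) = y := by ring
    simp only [sub_self, abs_zero, add_zero, e1] at this
    exact this.trans (by gcongr)
  have a3 : ∀ b c : ℕ, ‖(P b c - Q b c) - (Sh (lab m q c) (s + b * h) (t + c * h) -
      Sh (lab m p b) (s + b * h) (t + c * h))‖ ≤ δ := by
    intro b c
    have e1 : (P b c - Q b c) - (Sh (lab m q c) (s + b * h) (t + c * h) -
      Sh (lab m p b) (s + b * h) (t + c * h)) =
        (P b c - (Sh (lab m q c) (s + b * h) (t + c * h) - Sh 0 (s + b * h) (t + c * h))) -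
        (Q b c - (Sh (lab m p b) (s + b * h) (t + c * h) - Sh 0 (s + b * h) (t + c * h))) := by
      abel
    rw [e1]
    linarith [norm_sub_le
      (P b c - (Sh (lab m q c) (s + b * h) (t + c * h) - Sh 0 (s + b * h) (t + c * h)))
      (Q b c - (Sh (lab m p b) (s + b * h) (t + c * h) - Sh 0 (s + b * h) (t + c * h))),
      a1 b c, a2 b c]
  refine block_lemma P Q m p q δ hδ β κ b₀ c₀ hb₀ hc₀
    (hpack (fun u => P ((β * m + u) * p + b₀) ((κ * m + u) * q + c₀)) fun i => hK _ _ _) ?_ ?_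
  · intro u hu
    have := a3 ((β * m + u) * p + b₀) ((κ * m + u) * q + c₀)
    rw [lab_eq m p β u b₀ hu hb₀, lab_eq m q κ u c₀ hu hc₀] at this
    simpa using this
  · intro u hu v hv huv
    have h1 := a3 ((β * m + u) * p + b₀) ((κ * m + v) * q + c₀)
    have h2 := hsep ((β * m + u) * p + b₀) ?_ ((κ * m + v) * q + c₀) ?_ ?_
    · have := norm_sub_norm_le (Sh (lab m q ((κ * m + v) * q + c₀))
        (s + ((β * m + u) * p + b₀ : ℕ) * h) (t + ((κ * m + v) * q + c₀ : ℕ) * h) -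
        Sh (lab m p ((β * m + u) * p + b₀)) (s + ((β * m + u) * p + b₀ : ℕ) * h)
          (t + ((κ * m + v) * q + c₀ : ℕ) * h))
        (P ((β * m + u) * p + b₀) ((κ * m + v) * q + c₀) -
          Q ((β * m + u) * p + b₀) ((κ * m + v) * q + c₀))
      rw [norm_sub_rev] at h1
      linarith
    · rw [hM1]
      have : (β * m + u + 1) * p ≤ R' * (m * p) := by
        rw [← mul_assoc]
        exact Nat.mul_le_mul_right _ (by nlinarith)
      nlinarith
    · rw [hM2]
      have : (κ * m + v + 1) * q ≤ R * (m * q) := by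
        rw [← mul_assoc]
        exact Nat.mul_le_mul_right _ (by nlinarith)
      nlinarith
    · rw [lab_eq m p β u b₀ hu hb₀, lab_eq m q κ v c₀ hv hc₀]
      omega

theorem tot_add_le (G G' : ℕ → ℕ → ℝ → ℝ → E) (s t h lam y : ℝ) (M : ℕ)
    (H : ∀ b < M, ∀ c < M, en (G b c) (s + b * h) (t + c * h) h +
      lam * en (G' c b) (t + c * h) (s + b * h) h ≤ y) :
    tot G s t h M + lam * tot G' t s h M ≤ M ^ 2 * y := by
  unfold tot
  rw [sum_comm (s := range M) (t := range M)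
    (f := fun c b => en (G' b c) (t + b * h) (s + c * h) h), mul_sum, ← sum_add_distrib]
  have : (M : ℝ) ^ 2 * y = ∑ c ∈ range M, ∑ b ∈ range M, y := by simp; ring
  rw [this]
  refine sum_le_sum fun c hc => ?_
  rw [mul_sum, ← sum_add_distrib]
  exact sum_le_sum fun b hb => H b (mem_range.1 hb) c (mem_range.1 hc)

theorem tot_le (G : ℕ → ℕ → ℝ → ℝ → E) (s t h y : ℝ) (M : ℕ)
    (H : ∀ b < M, ∀ c < M, en (G b c) (s + b * h) (t + c * h) h ≤ y) :
    tot G s t h M ≤ M ^ 2 * y := by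
  have := tot_add_le G G s t h 0 y M (by simpa using H)
  simpa using this

end

section
variable {E : Type*} [NormedAddCommGroup E] [InnerProductSpace ℝ E]

/-- The dichotomy on one cell. `g` is the pigeonhole gain. -/
theorem step_cell (Sh : ℕ → ℝ → ℝ → E) (D K δ g η η₁ : ℝ) (hD : 0 ≤ D) (hδ : 0 ≤ δ) (hK0 : 0 ≤ K)
    (hg : 0 < g)
    (hL : ∀ i, Lip2 (Sh i) D) (hK : ∀ i s t, ‖Sh i s t - Sh 0 s t‖ ≤ K)
    (m n R M : ℕ) (hm : 0 < m) (hn : 0 < n) (hR : 0 < R) (hM : M = R * (m * (n * m)))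
    (s t h : ℝ) (hh : 0 < h) (hhδ : 4 * D * h ≤ δ)
    (hpack : ∀ x : ℕ → E, (∀ i, ‖x i‖ ≤ K) → ∃ u < m, ∃ v < m, u ≠ v ∧ ‖x u - x v‖ ≤ δ)
    (hsep : ∀ b < M, ∀ c < M, lab m m b ≠ lab m (n * m) c →
      5 * δ ≤ ‖Sh (lab m (n * m) c) (s + b * h) (t + c * h) -
        Sh (lab m m b) (s + b * h) (t + c * h)‖)
    (hgδ : g * m ^ 5 * h ^ 2 ≤ δ ^ 2) (hη : 16 * n ^ 2 * η = g)
    (he : 4 * D * K ≤ η * (M * h)) (hη₁ : 4 * D * K ≤ η₁ * (n * m * h))
    (lam : ℝ) (hlam : 0 ≤ lam) (A B : ℝ) (hA : A = en (Sh 0) s t (M * h) / (M * h) ^ 3)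
    (hB : B = en (fun t s => Sh 0 s t) t s (M * h) / (M * h) ^ 3)
    (H1 : ∀ b < M, ∀ c < M, en (fun t s => Sh 0 s t) (t + c * h) (s + b * h) h / h ^ 3 ≤ B + η)
    (H2 : ∀ b < M, ∀ c < M,
      en (fun t s => Sh (lab m m b) s t) (t + c * h) (s + b * h) h / h ^ 3 ≤ B + η)
    (H3 : ∀ b < M, ∀ c < M, en (Sh 0) (s + b * h) (t + c * h) h / h ^ 3 +
      lam * (en (fun t s => Sh 0 s t) (t + c * h) (s + b * h) h / h ^ 3) ≤
        A + g / 16 + lam * (B - η₁))
    (H4 : ∀ b < M, ∀ c < M, en (Sh (lab m (n * m) c)) (s + b * h) (t + c * h) h / h ^ 3 +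
      lam * (en (fun t s => Sh (lab m (n * m) c) s t) (t + c * h) (s + b * h) h / h ^ 3) ≤
        A + g / 16 + lam * (B - η₁)) : False := by
  have hM0 : 0 < M := by rw [hM]; positivity
  have hM0' : (0 : ℝ) < M := by exact_mod_cast hM0
  have hm' : (0 : ℝ) < m := by exact_mod_cast hm
  have hn' : (1 : ℝ) ≤ n := by exact_mod_cast hn
  have hη0 : 0 < η := by
    by_contra hc
    push Not at hc
    have : 0 ≤ 16 * (n : ℝ) ^ 2 := by positivity
    nlinarith
  have hηg : 16 * η ≤ g := by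
    have : (1 : ℝ) ≤ (n : ℝ) ^ 2 := by nlinarith
    nlinarith
  have h3 : 0 < h ^ 3 := by positivity
  have hη₁0 : 0 ≤ η₁ := by
    by_contra hc
    push Not at hc
    have : 0 < (n : ℝ) * m * h := by positivity
    have : 0 ≤ 4 * D * K := by positivity
    nlinarith
  -- totals
  have T1 := tot_le (fun _ _ t s => Sh 0 s t) t s h ((B + η) * h ^ 3) M
    (fun c hc b hb => by have := H1 b hb c hc; rwa [div_le_iff₀ h3] at this)
  have T2 := tot_le (fun _ b t s => Sh (lab m m b) s t) t s h ((B + η) * h ^ 3) M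
    (fun c hc b hb => by have := H2 b hb c hc; rwa [div_le_iff₀ h3] at this)
  have T3 := tot_add_le (fun _ _ => Sh 0) (fun _ _ t s => Sh 0 s t) s t h lam
    ((A + g / 16 + lam * (B - η₁)) * h ^ 3) M
    (fun b hb c hc => by
      have := H3 b hb c hc
      rw [← mul_div_assoc, ← add_div, div_le_iff₀ h3] at this
      exact this)
  have T4 := tot_add_le (fun _ c => Sh (lab m (n * m) c))
    (fun c _ t s => Sh (lab m (n * m) c) s t) s t h lam
    ((A + g / 16 + lam * (B - η₁)) * h ^ 3) M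
    (fun b hb c hc => by
      have := H4 b hb c hc
      rw [← mul_div_assoc, ← add_div, div_le_iff₀ h3] at this
      exact this)
  -- refinement inequalities
  have P1 := par_en (hL 0) (G1 := fun c => Sh (lab m (n * m) c)) (fun c => hL _)
    (fun c s t => hK _ s t) s t h hh.le M
  have P2 := par_en (hL 0).swap (G1 := fun b t s => Sh (lab m m b) s t) (fun c => (hL _).swap)
    (fun c t s => hK _ s t) t s h hh.le M
  have J := jensen_en (hL 0).swap t s h hh.le M
  have Ls := loss_en (hL 0).swap (G1 := fun k t s => Sh (k % m + 1) s t) (fun c => (hL _).swap)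
    (fun c t s => hK _ s t) t s h hh.le (R * m) (n * m) (by positivity)
  have hM' : R * m * (n * m) = M := by rw [hM]; ring
  rw [hM'] at Ls
  have Pg := pig_en Sh D K δ hD hδ hL hK m m (n * m) (R * n) R M (by rw [hM]; ring) hM s t h hh.le
    hhδ hpack hsep
  change _ ≤ _ * tot (fun c _ t s => Sh (lab m (n * m) c) s t) t s h M at Ls
  set a0 := tot (fun _ _ => Sh 0) s t h M
  set aH := tot (fun _ c => Sh (lab m (n * m) c)) s t h M
  set b0 := tot (fun _ _ t s => Sh 0 s t) t s h M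
  set bV := tot (fun _ b t s => Sh (lab m m b) s t) t s h M
  set bH := tot (fun c _ t s => Sh (lab m (n * m) c) s t) t s h M
  set xH := tot (fun _ c s t => Sh (lab m (n * m) c) s t - Sh 0 s t) s t h M
  set xV := tot (fun _ b t s => Sh (lab m m b) s t - Sh 0 s t) t s h M
  have hMh : 0 < (M : ℝ) * h := by positivity
  rw [eq_div_iff (by positivity)] at hA hB
  rw [← hA] at P1
  rw [← hB] at P2 J Ls
  set W : ℝ := (M : ℝ) ^ 2 * h ^ 3 with hW
  have hW0 : 0 < W := by positivity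
  have eW : ((M : ℝ) * h) ^ 3 = M * W := by rw [hW]; ring
  rw [eW] at P1 P2 J Ls
  have e1 : 4 * D * K * (M * h) * (M * h) ≤ M * (η * W) := by
    calc 4 * D * K * (M * h) * (M * h) ≤ η * (M * h) * (M * h) * (M * h) := by gcongr
      _ = M * (η * W) := by rw [hW]; ring
  have hMr : (M : ℝ) = R * (m * (n * m)) := by rw [hM]; push_cast; ring
  have e2 : 4 * D * K * h * (R * m : ℕ) * M * (M * h) ≤ M * (η₁ * W) := by
    calc 4 * D * K * h * (R * m : ℕ) * M * (M * h)
        ≤ η₁ * (n * m * h) * h * (R * m : ℕ) * M * (M * h) := by gcongr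
      _ = η₁ * h ^ 3 * M ^ 2 * (R * (m * (n * m))) := by push_cast; ring
      _ = M * (η₁ * W) := by rw [← hMr, hW]; ring
  have P1' : 2 * A * W - η * W + xH / 2 ≤ a0 + aH := by
    refine le_of_mul_le_mul_left ?_ hM0'
    linarith
  have P2' : 2 * B * W - η * W + xV / 2 ≤ b0 + bV := by
    refine le_of_mul_le_mul_left ?_ hM0'
    linarith
  have J' : B * W ≤ b0 := by
    refine le_of_mul_le_mul_left ?_ hM0'
    linarith
  have Ls' : B * W - η₁ * W ≤ bH := by
    refine le_of_mul_le_mul_left ?_ hM0'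
    linarith
  have Pg' : g * W ≤ xH + n ^ 2 * xV := by
    have hm3 : (0 : ℝ) < m ^ 3 := by positivity
    refine le_of_mul_le_mul_left ?_ hm3
    have : (m : ℝ) ^ 3 * (g * W) ≤ ((R * n : ℕ) : ℝ) * m * R * (n * m : ℕ) * δ ^ 2 * h := by
      calc (m : ℝ) ^ 3 * (g * W) = ((R * n : ℕ) : ℝ) * m * R * (n * m : ℕ) *
          (g * m ^ 5 * h ^ 2) * h := by rw [hW, hMr]; push_cast; ring
        _ ≤ _ := by gcongr
    refine this.trans (Pg.trans (le_of_eq ?_))
    push_cast; ring
  have T1' : b0 ≤ (B + η) * W := by rw [hW]; linarith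
  have T2' : bV ≤ (B + η) * W := by rw [hW]; linarith
  have T3' : a0 + lam * b0 ≤ (A + g / 16 + lam * (B - η₁)) * W := by rw [hW]; linarith
  have T4' : aH + lam * bH ≤ (A + g / 16 + lam * (B - η₁)) * W := by rw [hW]; linarith
  have s1 : xV ≤ 6 * (η * W) := by linarith
  have s2 : (n : ℝ) ^ 2 * xV ≤ 6 / 16 * (g * W) := by
    calc (n : ℝ) ^ 2 * xV ≤ n ^ 2 * (6 * (η * W)) := by gcongr
      _ = 6 / 16 * (g * W) := by rw [← hη]; ring
  have s3 : η * W ≤ g * W / 16 := by
    have := mul_le_mul_of_nonneg_right hηg hW0.le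
    linarith
  have s4 : lam * (B * W) ≤ lam * b0 := by gcongr
  have s5 : lam * (B * W - η₁ * W) ≤ lam * bH := by gcongr
  have s6 : 0 ≤ lam * (η₁ * W) := by positivity
  have s7 : 0 < g * W := by positivity
  linarith

end

end Crest.Agent.R254
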