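import Mathlib
import Crest.Agent.R254.Step
import Crest.Agent.R254.Defs

/-! The set admits no bi-Lipschitz map into a finite-dimensional Euclidean space. -/

set_option autoImplicit false

namespace Crest.Agent.R254

open Finset

theorem packing {E : Type*} [NormedAddCommGroup E] [ProperSpace E] (Rad δ : ℝ) (hδ : 0 < δ) :
    ∃ m₀ : ℕ, ∀ m, m₀ ≤ m → ∀ x : ℕ → E, (∀ i, ‖x i‖ ≤ Rad) →
      ∃ u < m, ∃ v < m, u ≠ v ∧ ‖x u - x v‖ ≤ δ := by
  classical
  have hc : IsCompact (Metric.closedBall (0 : E) Rad) := isCompact_closedBall _ _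
  obtain ⟨t, ht, hcov⟩ := Metric.totallyBounded_iff.1 hc.totallyBounded (δ / 2) (by positivity)
  refine ⟨ht.toFinset.card + 1, fun m hm x hx => ?_⟩
  have : ∀ i, ∃ y ∈ ht.toFinset, x i ∈ Metric.ball y (δ / 2) := by
    intro i
    have := hcov (show x i ∈ Metric.closedBall (0 : E) Rad by simpa using hx i)
    simpa using this
  choose f hf1 hf2 using this
  obtain ⟨u, hu, v, hv, huv, h⟩ := exists_ne_map_eq_of_card_lt_of_maps_to (s := range m)
    (t := ht.toFinset) (by simp only [card_range]; omega) (f := f) (fun i _ => hf1 i)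
  refine ⟨u, mem_range.1 hu, v, mem_range.1 hv, huv, ?_⟩
  have h1 := hf2 u
  have h2 := hf2 v
  rw [h] at h1
  rw [← dist_eq_norm]
  have := dist_triangle_right (x u) (x v) (f v)
  simp only [Metric.mem_ball] at h1 h2
  linarith

section
variable {B : Type*} [NormedAddCommGroup B] [NormedSpace ℝ B]

/-- A state: a cell of level `j` with a height that is admissible over the whole cell. -/
structure St (Y : ℕ → B) where
  j : ℕ
  u : ℕ
  v : ℕ
  z : B
  hu : u < NN j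
  hv : v < NN j
  hz : ∀ s t : ℝ, (u : ℝ) / NN j ≤ s → s ≤ (u + 1 : ℝ) / NN j →
    (v : ℝ) / NN j ≤ t → t ≤ (v + 1 : ℝ) / NN j → Valid Y j s t z

theorem lab_strip (l : ℕ) (p U b M k : ℕ) (hp : 0 < p) (hM : M = k * (mm l * p)) (h s : ℝ)
    (hh : 0 < h) (h1 : ((U * M + b : ℕ) : ℝ) * h ≤ s) (h2 : s ≤ ((U * M + b : ℕ) + 1 : ℝ) * h) :
    ∃ W : ℕ, W * (p * h) ≤ s ∧ s ≤ (W + 1) * (p * h) ∧ lab (mm l) p b = W % mm l + 1 := by
  refine ⟨(U * M + b) / p, ?_, ?_, ?_⟩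
  · refine le_trans ?_ h1
    rw [← mul_assoc]
    gcongr
    exact_mod_cast Nat.div_mul_le_self _ _
  · refine h2.trans ?_
    rw [← mul_assoc]
    gcongr
    have := Nat.lt_div_mul_add (a := U * M + b) hp
    have h3 : U * M + b + 1 ≤ ((U * M + b) / p + 1) * p := by nlinarith
    exact_mod_cast h3
  · unfold lab
    have : U * M + b = b + (U * k * mm l) * p := by rw [hM]; ring
    rw [this, Nat.add_mul_div_right _ _ hp, Nat.add_mul_mod_self_right]

theorem no_embed {E : Type*} [NormedAddCommGroup E] [InnerProductSpace ℝ E] [ProperSpace E]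
    (e1 e2 : B) (he1 : ‖e1‖ ≤ 1) (he2 : ‖e2‖ ≤ 1) (Y : ℕ → B) (hY0 : Y 0 = 0)
    (hY4 : ∀ i, ‖Y i‖ ≤ 4) (hY1 : ∀ i j, i ≠ j → 1 ≤ ‖Y i - Y j‖)
    (F : B → E) (D : ℝ) (hD : 0 < D) (hF : ∀ x y, ‖F x - F y‖ ≤ D * ‖x - y‖) (c : ℝ) (hc : 0 < c)
    (hco : ∀ P ∈ SS e1 e2 Y, ∀ P' ∈ SS e1 e2 Y, ‖P - P'‖ ≤ c * ‖F P - F P'‖) : False := by
  obtain ⟨m₀, hm₀⟩ := packing (E := E) (4 * D) (1 / (5 * c)) (by positivity)
  obtain ⟨m, hm1, hm2, hm3⟩ : ∃ m : ℕ, m₀ ≤ m ∧ 20 * D * c ≤ m ∧ 0 < m := by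
    obtain ⟨k, hk⟩ := exists_nat_ge (20 * D * c)
    refine ⟨m₀ + k + 1, by omega, hk.trans ?_, by omega⟩
    push_cast; linarith [Nat.cast_nonneg (α := ℝ) m₀]
  have hm' : (0 : ℝ) < m := by exact_mod_cast hm3
  let G : B → ℝ → ℝ → E := fun z s t => F (s • e1 + t • e2 + z)
  have hG : ∀ z, Lip2 (G z) D := by
    intro z s t s' t'
    refine (hF _ _).trans ?_
    gcongr
    have : s • e1 + t • e2 + z - (s' • e1 + t' • e2 + z) = (s - s') • e1 + (t - t') • e2 := by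
      simp only [sub_smul]; abel
    rw [this]
    refine (norm_add_le _ _).trans ?_
    rw [norm_smul, norm_smul, Real.norm_eq_abs, Real.norm_eq_abs]
    have := abs_nonneg (s - s')
    have := abs_nonneg (t - t')
    nlinarith
  let A : St Y → ℝ := fun τ =>
    en (G τ.z) (τ.u / NN τ.j) (τ.v / NN τ.j) (1 / NN τ.j) / (1 / NN τ.j) ^ 3
  let Bf : St Y → ℝ := fun τ =>
    en (fun t s => G τ.z s t) (τ.v / NN τ.j) (τ.u / NN τ.j) (1 / NN τ.j) / (1 / NN τ.j) ^ 3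
  have hN : ∀ l, (0 : ℝ) < NN l := fun l => by exact_mod_cast NN_pos l
  have : Nonempty (St Y) := ⟨⟨0, 0, 0, 0, one_pos, one_pos, fun s t _ _ _ _ => valid_zero Y s t⟩⟩
  set g : ℝ := 1 / (25 * c ^ 2 * m ^ 3) with hg
  have hg0 : 0 < g := by positivity
  refine lex_false A Bf (D ^ 2) (g / 16) (by positivity) ?_ ?_ ?_ ?_
  · intro τ
    have := hN τ.j
    exact div_nonneg (en_nonneg _ _ _ _ (by positivity)) (by positivity)
  · intro τ
    have := hN τ.j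
    simp only [A]
    rw [div_le_iff₀ (by positivity)]
    exact en_le (hG _) _ _ _ (by positivity)
  · intro τ
    have := hN τ.j
    simp only [Bf]
    rw [div_le_iff₀ (by positivity)]
    exact en_le (hG _).swap _ _ _ (by positivity)
  intro η₁ hη₁
  obtain ⟨n, hn1, hn2⟩ : ∃ n : ℕ, 16 * D ^ 2 ≤ η₁ * n ∧ 0 < n := by
    obtain ⟨k, hk⟩ := exists_nat_ge (16 * D ^ 2 / η₁)
    rw [div_le_iff₀ hη₁] at hk
    refine ⟨k + 1, hk.trans ?_, by omega⟩
    push_cast; nlinarith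
  have hn' : (0 : ℝ) < n := by exact_mod_cast hn2
  set η : ℝ := g / (16 * n ^ 2) with hη
  have hη0 : 0 < η := by positivity
  refine ⟨η, hη0, fun τ => ?_⟩
  by_contra hcon
  push Not at hcon
  obtain ⟨H12, lam, hlam, H34⟩ := hcon
  obtain ⟨j', hj'⟩ := exists_nat_ge (16 * D ^ 2 * NN τ.j / η)
  obtain ⟨l, hl, hml, hnl⟩ := exists_level m n (τ.j + j') hm3 hn2
  obtain ⟨k, hk⟩ := NN_dvd (show τ.j ≤ l by omega)
  have hk0 : 0 < k := by
    have := NN_pos l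
    rw [hk] at this
    exact Nat.pos_of_mul_pos_left this
  obtain ⟨R, hR⟩ : ∃ R : ℕ, R = k * 1000 := ⟨_, rfl⟩
  obtain ⟨M, hM⟩ : ∃ M : ℕ, M = R * (m * (n * m)) := ⟨_, rfl⟩
  have hR0 : 0 < R := by omega
  have hNM : NN (l + 1) = NN τ.j * M := by
    simp only [NN]; rw [hk, hml, hnl, hM, hR]; ring
  have hM0 : 0 < M := by rw [hM]; positivity
  have hM0' : (0 : ℝ) < M := by exact_mod_cast hM0
  obtain ⟨h, hh⟩ : ∃ h : ℝ, h = 1 / NN (l + 1) := ⟨_, rfl⟩
  have hh0 : 0 < h := by rw [hh]; exact one_div_pos.2 (hN (l + 1))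
  have hMh : (M : ℝ) * h = 1 / NN τ.j := by
    have := hN τ.j
    rw [hh, hNM]; push_cast; field_simp
  have hρ : rho l = m * h := by unfold rho; rw [hml, hh]; ring
  have hρ0 := rho_pos l
  have hcell : ∀ U b : ℕ, ((U * M + b : ℕ) : ℝ) / NN (l + 1) = U / NN τ.j + b * h := by
    intro U b
    have := hN τ.j
    rw [hh, hNM]; push_cast; field_simp
  have hdiv : ∀ x : ℝ, x / NN (l + 1) = x * h := fun x => by rw [hh]; ring
  -- successor states
  have hin : ∀ (U b : ℕ) (s : ℝ), b < M → ((U * M + b : ℕ) : ℝ) / NN (l + 1) ≤ s →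
      s ≤ ((U * M + b : ℕ) + 1 : ℝ) / NN (l + 1) →
      (U : ℝ) / NN τ.j ≤ s ∧ s ≤ (U + 1 : ℝ) / NN τ.j := by
    intro U b s hb h1 h2
    rw [add_div, hcell, ← hh] at h2
    rw [hcell] at h1
    have hb' : (b : ℝ) + 1 ≤ M := by exact_mod_cast hb
    have : ((b : ℝ) + 1) * h ≤ M * h := by gcongr
    have h5 : 0 ≤ (b : ℝ) * h := by positivity
    constructor
    · linarith
    · rw [add_div, ← hMh]; linarith
  have hlt : ∀ U b : ℕ, U < NN τ.j → b < M → U * M + b < NN (l + 1) := by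
    intro U b hU hb
    rw [hNM]
    have : (U + 1) * M ≤ NN τ.j * M := Nat.mul_le_mul_right _ hU
    nlinarith
  have hLab : ∀ b c' : ℕ, ∀ i, (i = 0 ∨ i = lab m m b ∨ i = lab m (n * m) c') → ∀ s t : ℝ,
      ((τ.u * M + b : ℕ) : ℝ) / NN (l + 1) ≤ s → s ≤ ((τ.u * M + b : ℕ) + 1 : ℝ) / NN (l + 1) →
      ((τ.v * M + c' : ℕ) : ℝ) / NN (l + 1) ≤ t → t ≤ ((τ.v * M + c' : ℕ) + 1 : ℝ) / NN (l + 1) →
      Lab l s t i := by
    intro b c' i hi s t h1 h2 h3 h4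
    rw [hdiv] at h1 h2 h3 h4
    rcases hi with rfl | rfl | rfl
    · exact Or.inl rfl
    · obtain ⟨W, hW⟩ := lab_strip l m τ.u b M (R * n) hm3 (by rw [hml, hM]; ring) h s hh0 h1 h2
      rw [← hρ] at hW
      refine Or.inr (Or.inl ⟨W, hW.1, hW.2.1, ?_⟩)
      rw [← hW.2.2, hml]
    · obtain ⟨W, hW⟩ := lab_strip l (n * m) τ.v c' M R (by positivity) (by rw [hml, hM]) h t hh0
        h3 h4
      have : ((n * m : ℕ) : ℝ) * h = nn l * rho l := by rw [hρ, hnl]; push_cast; ring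
      rw [this] at hW
      refine Or.inr (Or.inr ⟨W, hW.1, hW.2.1, ?_⟩)
      rw [← hW.2.2, hml]
  let succ : ∀ b, b < M → ∀ c', c' < M → ∀ i, (i = 0 ∨ i = lab m m b ∨ i = lab m (n * m) c') →
      St Y := fun b hb c' hc' i hi =>
    ⟨l + 1, τ.u * M + b, τ.v * M + c', τ.z + rho l • Y i, hlt _ _ τ.hu hb, hlt _ _ τ.hv hc',
      fun s t h1 h2 h3 h4 =>
        ((τ.hz s t (hin _ _ _ hb h1 h2).1 (hin _ _ _ hb h1 h2).2 (hin _ _ _ hc' h3 h4).1
          (hin _ _ _ hc' h3 h4).2).mono hY0 (by omega)).succ (hLab b c' i hi s t h1 h2 h3 h4)⟩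
  let Sh : ℕ → ℝ → ℝ → E := fun i => G (τ.z + rho l • Y i)
  have hAs : ∀ b hb c' hc' i hi, A (succ b hb c' hc' i hi) =
      en (Sh i) (τ.u / NN τ.j + b * h) (τ.v / NN τ.j + c' * h) h / h ^ 3 := by
    intro b hb c' hc' i hi
    simp only [A, succ, Sh, hcell, ← hh]
  have hBs : ∀ b hb c' hc' i hi, Bf (succ b hb c' hc' i hi) =
      en (fun t s => Sh i s t) (τ.v / NN τ.j + c' * h) (τ.u / NN τ.j + b * h) h / h ^ 3 := by
    intro b hb c' hc' i hi
    simp only [Bf, succ, Sh, hcell, ← hh]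
  have hSh0 : Sh 0 = G τ.z := by simp [Sh, hY0]
  have hdiff : ∀ (i i' : ℕ) (s t : ℝ), (s • e1 + t • e2 + (τ.z + rho l • Y i)) -
      (s • e1 + t • e2 + (τ.z + rho l • Y i')) = rho l • (Y i - Y i') := by
    intro i i' s t
    rw [smul_sub]; abel
  refine step_cell Sh D (4 * D * rho l) (rho l / (5 * c)) g η η₁ hD.le (by positivity)
    (by positivity) hg0 (fun i => hG _) ?_ m n R M hm3 hn2 hR0 hM
    (τ.u / NN τ.j) (τ.v / NN τ.j) h hh0 ?_ ?_ ?_ ?_ ?_ ?_ ?_ lam hlam (A τ) (Bf τ) ?_ ?_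
    ?_ ?_ ?_ ?_
  · intro i s t
    refine (hF _ _).trans ?_
    rw [hdiff, hY0, sub_zero, norm_smul, Real.norm_eq_abs, abs_of_pos hρ0]
    have := hY4 i
    have : rho l * ‖Y i‖ ≤ rho l * 4 := by gcongr
    nlinarith
  · rw [hρ, le_div_iff₀ (by positivity)]
    nlinarith
  · intro x hx
    obtain ⟨u, hu, v, hv, huv, h1⟩ := hm₀ m hm1 (fun i => (rho l)⁻¹ • x i) (fun i => by
      rw [norm_smul, Real.norm_eq_abs, abs_of_pos (by positivity), inv_mul_le_iff₀ hρ0]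
      linarith [hx i])
    refine ⟨u, hu, v, hv, huv, ?_⟩
    rw [← smul_sub, norm_smul, Real.norm_eq_abs, abs_of_pos (by positivity),
      inv_mul_le_iff₀ hρ0] at h1
    rwa [mul_one_div] at h1
  · intro b hb c' hc' hne
    have hmem : ∀ i (hi : i = 0 ∨ i = lab m m b ∨ i = lab m (n * m) c'),
        ((τ.u : ℝ) / NN τ.j + b * h) • e1 + ((τ.v : ℝ) / NN τ.j + c' * h) • e2 +
          (τ.z + rho l • Y i) ∈ SS e1 e2 Y := by
      intro i hi
      have q1 : ∀ U : ℕ, U < NN (l + 1) → (U : ℝ) / NN (l + 1) ∈ Set.Icc (0 : ℝ) 1 := by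
        intro U hU
        have := hN (l + 1)
        refine ⟨div_nonneg (Nat.cast_nonneg _) this.le, ?_⟩
        rw [div_le_one this]
        exact_mod_cast hU.le
      have q2 : ∀ x : ℝ, x / NN (l + 1) ≤ (x + 1) / NN (l + 1) := by
        intro x
        exact div_le_div_of_nonneg_right (by linarith) (hN (l + 1)).le
      refine ⟨_, _, l + 1, _, ?_, ?_, ?_, rfl⟩
      · rw [← hcell]; exact q1 _ (hlt _ _ τ.hu hb)
      · rw [← hcell]; exact q1 _ (hlt _ _ τ.hv hc')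
      · rw [← hcell, ← hcell]
        exact (succ b hb c' hc' i hi).hz _ _ le_rfl (q2 _) le_rfl (q2 _)
    have h1 := hco _ (hmem _ (Or.inr (Or.inr rfl))) _ (hmem _ (Or.inr (Or.inl rfl)))
    rw [hdiff, norm_smul, Real.norm_eq_abs, abs_of_pos hρ0] at h1
    have h2 := hY1 _ _ hne.symm
    have h3 : rho l * 1 ≤ rho l * ‖Y (lab m (n * m) c') - Y (lab m m b)‖ := by gcongr
    have e : 5 * (rho l / (5 * c)) = rho l / c := by field_simp
    rw [e, div_le_iff₀ hc]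
    simp only [Sh, G]
    linarith
  · rw [hρ, hg]
    refine le_of_eq ?_
    field_simp
    ring
  · rw [hη]; field_simp
  · rw [hMh]
    have h1 := rho_le l
    have h2 : (j' : ℝ) ≤ NN l := by
      have := lt_NN l
      exact_mod_cast (show j' ≤ NN l by omega)
    have h3 := hN l
    have h4 := hN τ.j
    rw [div_le_iff₀ hη0] at hj'
    rw [mul_one_div, le_div_iff₀ h4]
    rw [le_div_iff₀ (by positivity)] at h1
    have h5 : rho l * NN l ≤ 1 := by nlinarith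
    have h6 : 16 * D ^ 2 * NN τ.j ≤ NN l * η := hj'.trans (by gcongr)
    have h7 : rho l * (16 * D ^ 2 * NN τ.j) ≤ rho l * (NN l * η) := by gcongr
    nlinarith
  · rw [mul_assoc (n : ℝ), ← hρ]
    nlinarith
  · rw [hMh, hSh0]
  · rw [hMh, hSh0]
  · intro b hb c' hc'
    rw [← hBs b hb c' hc' 0 (Or.inl rfl)]
    exact (H12 _).le
  · intro b hb c' hc'
    rw [← hBs b hb c' hc' _ (Or.inr (Or.inl rfl))]
    exact (H12 _).le
  · intro b hb c' hc'
    rw [← hBs b hb c' hc' 0 (Or.inl rfl), ← hAs b hb c' hc' 0 (Or.inl rfl)]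
    exact (H34 _).le
  · intro b hb c' hc'
    rw [← hBs b hb c' hc' _ (Or.inr (Or.inr rfl)), ← hAs b hb c' hc' _ (Or.inr (Or.inr rfl))]
    exact (H34 _).le

end

end Crest.Agent.R254
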